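import Vale.Agent.P235.NoViol

/-!
Module G3: termination of the restarts.

`claim`: downward induction on `i`.  `i = last`: `exists_viol`.  Step (`claim_step`): iterate `claim`
for `i` and `restart` for `i`: every restart increases `kk i` by at least `η r`, and `kk i ≤ C`, so
after boundedly many steps a violation of index `< i` occurs.
-/

open MeasureTheory

namespace P235

/-- the claim for index `i` with constants `nn`, `r` -/
def Cl (n : ℕ) [NeZero n] (C : ℝ) (i : Fin (n + 2)) (nn : ℕ) (r : ℝ) : Prop :=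
  ∀ (N : ℕ) (A : Strat n N C) (p : List (Mv n)), p.length + nn ≤ N →
    ∃ p' : List (Mv n), p'.length ≤ p.length + nn ∧
      (∀ l ≤ i, (state p').1 l = (state p).1 l ∧ A.kk p' l = A.kk p l) ∧
      r * (state p).1 i ≤ rho (state p').1 ∧ ∃ i' ≤ i, A.Viol p' i'

theorem eta_pos : 0 < eta := by unfold eta; norm_num

/-- iteration of restarts of index `i` -/
theorem iterate {n : ℕ} [NeZero n] {C : ℝ} {i : Fin (n + 2)} {nn : ℕ} {r : ℝ} (hr : 0 < r) (hr1 : r ≤ 1)
    (h : Cl n C i nn r) (T : ℕ) : ∀ (N : ℕ) (A : Strat n N C) (p : List (Mv n)),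
      p.length + (T + 1) * (nn + 2) ≤ N → C - A.kk p i < T * (eta * r) →
      ∃ p' : List (Mv n), p'.length ≤ p.length + (T + 1) * (nn + 2) ∧
        (∀ l < i, (state p').1 l = (state p).1 l ∧ A.kk p' l = A.kk p l) ∧
        r ^ T * (state p).1 i ≤ rho (state p').1 ∧ ∃ i' < i, A.Viol p' i' := by
  induction T with
  | zero =>
    intro N A p hp hC
    exfalso
    have h1 := A.kk_le p (by omega) i
    simp only [Nat.cast_zero, zero_mul] at hC
    linarith
  | succ T ih =>
    intro N A p hp hC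
    have hlen : (T + 1 + 1) * (nn + 2) = (T + 1) * (nn + 2) + (nn + 2) := by ring
    rw [hlen] at hp ⊢
    obtain ⟨p1, hp1, hkeep, hrho, i', hi', hv⟩ := h N A p (by omega)
    have hLp := (adm_state p).1 i
    rcases hi'.lt_or_eq with hlt | heq
    · refine ⟨p1, by omega, fun l hl => hkeep l hl.le, ?_, i', hlt, hv⟩
      have h1 : r ^ (T + 1) ≤ r := by
        rw [pow_succ]
        have := pow_le_one₀ (n := T) hr.le hr1
        nlinarith
      nlinarith
    · subst heq
      obtain ⟨p2, hp2, hkeep2, hrho2, hkk⟩ := A.restart p1 i' hv (by omega)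
      have hL1 := (hkeep i' le_rfl).1
      have hk1 := (hkeep i' le_rfl).2
      have hgain : A.kk p i' + eta * r ≤ A.kk p2 i' := by
        rw [hk1, hL1] at hkk
        have h2 : eta * r ≤ eta * rho (state p1).1 / (state p).1 i' := by
          rw [le_div_iff₀ hLp]
          have := eta_pos
          nlinarith
        linarith
      have hC2 : C - A.kk p2 i' < T * (eta * r) := by
        push_cast at hC
        linarith
      obtain ⟨p3, hp3, hkeep3, hrho3, i'', hi'', hv''⟩ := ih N A p2 (by omega) hC2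
      refine ⟨p3, by omega, fun l hl => ?_, ?_, i'', hi'', hv''⟩
      · obtain ⟨a1, a2⟩ := hkeep3 l hl
        obtain ⟨b1, b2⟩ := hkeep2 l hl
        obtain ⟨c1, c2⟩ := hkeep l hl.le
        exact ⟨a1.trans (b1.trans c1), a2.trans (b2.trans c2)⟩
      · have h3 : r * (state p).1 i' ≤ (state p2).1 i' := hrho.trans hrho2
        calc r ^ (T + 1) * (state p).1 i' = r ^ T * (r * (state p).1 i') := by ring
          _ ≤ r ^ T * (state p2).1 i' := mul_le_mul_of_nonneg_left h3 (by positivity)
          _ ≤ _ := hrho3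

theorem claim (n : ℕ) [NeZero n] (i : Fin (n + 2)) :
    ∃ (nn : ℕ) (r : ℝ), 0 < r ∧ r ≤ 1 ∧ ∀ C : ℝ, C < (4 / 3) ^ n → Cl n C i nn r := by
  induction i using Fin.reverseInduction with
  | last =>
    refine ⟨1, 1 / 8, by norm_num, by norm_num, fun C hC N A p hp => ?_⟩
    obtain ⟨i', hi'⟩ := A.exists_viol hC p hp
    refine ⟨p, by omega, fun l _ => ⟨rfl, rfl⟩, ?_, i', Fin.le_last i', hi'⟩
    unfold rho
    linarith
  | cast i ih =>
    obtain ⟨nn, r, hr, hr1, h⟩ := ih
    have her : 0 < eta * r := mul_pos eta_pos hr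
    obtain ⟨T, hT⟩ := exists_nat_ge ((4 / 3 : ℝ) ^ n / (eta * r))
    rw [div_le_iff₀ her] at hT
    refine ⟨1 + (T + 1) * (nn + 2), r ^ T, by positivity, pow_le_one₀ hr.le hr1,
      fun C hC N A p hp => ?_⟩
    obtain ⟨p1, hp1, hkeep1, hL1⟩ := A.reset p i.castSucc (by omega)
    have hk := A.one_le_kk p1 (by omega) i.succ
    obtain ⟨p2, hp2, hkeep2, hrho2, i', hi', hv⟩ := iterate hr hr1 (h C hC) T N A p1 (by omega)
      (by linarith)
    refine ⟨p2, by omega, fun l hl => ?_, ?_, i', ?_, hv⟩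
    · have hl' : l < i.succ := by
        rw [Fin.lt_def, Fin.val_succ]
        rw [Fin.le_def, Fin.val_castSucc] at hl
        omega
      obtain ⟨a1, a2⟩ := hkeep2 l hl'
      obtain ⟨b1, b2⟩ := hkeep1 l hl
      exact ⟨a1.trans b1, a2.trans b2⟩
    · rw [hL1 i.succ (Fin.castSucc_lt_succ)] at hrho2
      exact hrho2
    · rw [Fin.lt_def, Fin.val_succ] at hi'
      rw [Fin.le_def, Fin.val_castSucc]
      omega

/-- there is no strategy of large depth -/
theorem no_strat (n : ℕ) [NeZero n] :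
    ∃ N : ℕ, ∀ C : ℝ, C < (4 / 3) ^ n → ∀ _A : Strat n N C, False := by
  obtain ⟨nn, r, hr, hr1, h⟩ := claim n 0
  have her : 0 < eta * r := mul_pos eta_pos hr
  obtain ⟨T, hT⟩ := exists_nat_ge ((4 / 3 : ℝ) ^ n / (eta * r))
  rw [div_le_iff₀ her] at hT
  refine ⟨(T + 1) * (nn + 2), fun C hC A => ?_⟩
  have hk := A.one_le_kk [] (by simp) 0
  obtain ⟨p2, -, -, -, i', hi', -⟩ := iterate hr hr1 (h C hC) T _ A [] (by simp) (by linarith)
  exact absurd hi' (Fin.not_lt_zero i')

end P235
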