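import Mathlib

/-!
Definitions used in the statement (P235, L₁ embeddings of graph metrics).
-/

open MeasureTheory

namespace P235

/-- total length of a walk -/
def walkLength {V : Type} {G : SimpleGraph V} (ℓ : Sym2 V → ℝ) {u v : V} (p : G.Walk u v) : ℝ :=
  (p.edges.map ℓ).sum

/-- shortest-path metric of a graph with edge lengths `ℓ` -/
noncomputable def pathDist {V : Type} (G : SimpleGraph V) (ℓ : Sym2 V → ℝ) (u v : V) : ℝ :=
  ⨅ p : G.Walk u v, walkLength ℓ p

/-- `(V, d)` embeds into some `L₁` space with distortion at most `C` -/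
def EmbedsL1 {V : Type} (d : V → V → ℝ) (C : ℝ) : Prop :=
  ∃ (Ω : Type) (_ : MeasurableSpace Ω) (μ : Measure Ω) (f : V → Lp ℝ 1 μ),
    ∀ x y, d x y ≤ ‖f x - f y‖ ∧ ‖f x - f y‖ ≤ C * d x y

/-- tree decomposition of width at most `w` -/
structure TreeDecomposition {V : Type} (G : SimpleGraph V) (w : ℕ) where
  T : Type
  tree : SimpleGraph T
  isTree : tree.IsTree
  bag : T → Finset V
  edge_mem : ∀ u v, G.Adj u v → ∃ t, u ∈ bag t ∧ v ∈ bag t
  subtree : ∀ v, (tree.induce {t | v ∈ bag t}).Connected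
  card_bag : ∀ t, (bag t).card ≤ w + 1

/-- `G` has treewidth at most `w` -/
def TreewidthLE {V : Type} (G : SimpleGraph V) (w : ℕ) : Prop := Nonempty (TreeDecomposition G w)

end P235
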