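import Vale.Agent.P235.Defs

/-! Module S5: the pentagonal inequality in `L₁`.  For real numbers:
`|x - x'| + |y₁ - y₂| + |y₁ - y₃| + |y₂ - y₃| ≤ ∑ (|x - yₐ| + |yₐ - x'|)`; integrate. -/

open MeasureTheory

namespace P235

theorem penta_real (x x' y₁ y₂ y₃ : ℝ) :
    |x - x'| + |y₁ - y₂| + |y₁ - y₃| + |y₂ - y₃| ≤
      |x - y₁| + |y₁ - x'| + (|x - y₂| + |y₂ - x'|) + (|x - y₃| + |y₃ - x'|) := by
  rcases abs_cases (x - x') with ⟨e1, _⟩ | ⟨e1, _⟩ <;>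
  rcases abs_cases (y₁ - y₂) with ⟨e2, _⟩ | ⟨e2, _⟩ <;>
  rcases abs_cases (y₁ - y₃) with ⟨e3, _⟩ | ⟨e3, _⟩ <;>
  rcases abs_cases (y₂ - y₃) with ⟨e4, _⟩ | ⟨e4, _⟩ <;>
  rw [e1, e2, e3, e4] <;>
  linarith [le_abs_self (x - y₁), neg_abs_le (x - y₁), le_abs_self (y₁ - x'), neg_abs_le (y₁ - x'),
    le_abs_self (x - y₂), neg_abs_le (x - y₂), le_abs_self (y₂ - x'), neg_abs_le (y₂ - x'),
    le_abs_self (x - y₃), neg_abs_le (x - y₃), le_abs_self (y₃ - x'), neg_abs_le (y₃ - x')]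

theorem penta {Ω : Type} [MeasurableSpace Ω] {μ : Measure Ω} (x x' y₁ y₂ y₃ : Lp ℝ 1 μ) :
    ‖x - x'‖ + ‖y₁ - y₂‖ + ‖y₁ - y₃‖ + ‖y₂ - y₃‖ ≤
      ‖x - y₁‖ + ‖y₁ - x'‖ + (‖x - y₂‖ + ‖y₂ - x'‖) + (‖x - y₃‖ + ‖y₃ - x'‖) := by
  have hn : ∀ f g : Lp ℝ 1 μ, ‖f - g‖ = ∫ a, |f a - g a| ∂μ := by
    intro f g
    rw [L1.norm_eq_integral_norm]
    refine integral_congr_ae ?_
    filter_upwards [Lp.coeFn_sub f g] with a ha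
    rw [ha, Pi.sub_apply, Real.norm_eq_abs]
  have hi : ∀ f g : Lp ℝ 1 μ, Integrable (fun a => |f a - g a|) μ := by
    intro f g
    exact ((L1.integrable_coeFn f).sub (L1.integrable_coeFn g)).abs
  have h3 : ∀ F G : Ω → ℝ, Integrable F μ → Integrable G μ →
      ∫ a, (F a + G a) ∂μ = ∫ a, F a ∂μ + ∫ a, G a ∂μ := fun F G => integral_add
  have a3 : ∀ F G : Ω → ℝ, Integrable F μ → Integrable G μ → Integrable (fun a => F a + G a) μ :=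
    fun F G h1 h2 => h1.add h2
  have l1 := a3 _ _ (hi x x') (hi y₁ y₂)
  have l2 := a3 _ _ l1 (hi y₁ y₃)
  have l3 := a3 _ _ l2 (hi y₂ y₃)
  have r1 := a3 _ _ (hi x y₁) (hi y₁ x')
  have r2 := a3 _ _ (hi x y₂) (hi y₂ x')
  have r3 := a3 _ _ (hi x y₃) (hi y₃ x')
  have r4 := a3 _ _ r1 r2
  have r5 := a3 _ _ r4 r3
  simp only [hn]
  rw [← h3 _ _ (hi x x') (hi y₁ y₂), ← h3 _ _ l1 (hi y₁ y₃), ← h3 _ _ l2 (hi y₂ y₃),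
    ← h3 _ _ (hi x y₁) (hi y₁ x'), ← h3 _ _ (hi x y₂) (hi y₂ x'), ← h3 _ _ (hi x y₃) (hi y₃ x'),
    ← h3 _ _ r1 r2, ← h3 _ _ r4 r3]
  refine integral_mono l3 r5 ?_
  intro a
  exact penta_real _ _ _ _ _

end P235
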