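import Vale.Agent.P235.Sys

/-! Module S3: a Lipschitz function on one bag extends to all bags.

`child_ext`, `parent_ext`: McShane extension on the finite pseudometric space `S` with the metric `δ p`
(formula `min over the known slots a of (h a + δ a s)`).  `ext`: by induction on `p0`, first construct
a family `H : List M → S → ℝ` with `H p0 = h`, every `H p` Lipschitz and `H (m :: p) s = H p s'` if
`tr p m s = some s'`.  Base: `H [] = h`, children by `child_ext`.  Step `p0 = m :: p`: extend `h` to the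
parent bag, take the family `H1` for the parent, keep `H1` outside of the subtree of `m :: p`
(`(m :: p) <:+ q`), and rebuild the subtree from `h` by `child_ext`.  Finally `F (q, s) = H q s`;
`F (rep p s) = H p s` by induction on `p`. -/

open MeasureTheory

namespace P235

namespace Sys

variable {M S : Type} (A : Sys M S)

private theorem mcshane [Finite S] (d : S → S → ℝ) (d_self : ∀ s, d s s = 0)
    (d_symm : ∀ s t, d s t = d t s) (d_tri : ∀ s t u, d s u ≤ d s t + d t u)
    (K : Set S) (hK : K.Nonempty) (g : S → ℝ) (hg : ∀ s ∈ K, ∀ t ∈ K, |g s - g t| ≤ d s t) :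
    ∃ h : S → ℝ, (∀ s t, |h s - h t| ≤ d s t) ∧ ∀ s ∈ K, h s = g s := by
  classical
  have := Fintype.ofFinite S
  set B : Finset S := Finset.univ.filter (fun s => s ∈ K) with hB
  have hBm : ∀ s, s ∈ B ↔ s ∈ K := fun s => by rw [hB, Finset.mem_filter]; simp
  have hBne : B.Nonempty := by
    obtain ⟨s, hs⟩ := hK
    exact ⟨s, (hBm s).2 hs⟩
  have hle : ∀ x, ∀ k ∈ B, B.inf' hBne (fun k => g k + d k x) ≤ g k + d k x := fun x k hk =>
    Finset.inf'_le (fun k => g k + d k x) hk
  have hone : ∀ x y, B.inf' hBne (fun k => g k + d k x) - B.inf' hBne (fun k => g k + d k y) ≤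
      d x y := by
    intro x y
    obtain ⟨k, hk, hk2⟩ := Finset.exists_mem_eq_inf' hBne (fun k => g k + d k y)
    have h1 := hle x k hk
    have h2 := d_tri k y x
    have h3 := d_symm x y
    rw [hk2]
    linarith
  refine ⟨fun x => B.inf' hBne (fun k => g k + d k x), ?_, ?_⟩
  · intro x y
    rw [abs_le]
    have h1 := hone x y
    have h2 := hone y x
    rw [d_symm y x] at h2
    constructor <;> linarith
  · intro s hs
    apply le_antisymm
    · have h1 := hle s s ((hBm s).2 hs)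
      rw [d_self] at h1
      linarith
    · apply Finset.le_inf'
      intro k hk
      have h1 := hg s hs k ((hBm k).1 hk)
      rw [abs_le, d_symm s k] at h1
      linarith

theorem child_ext [Finite S] (p : List M) (m : M) (h : S → ℝ)
    (hh : ∀ s t, |h s - h t| ≤ A.δ p s t) :
    ∃ h' : S → ℝ, (∀ s t, |h' s - h' t| ≤ A.δ (m :: p) s t) ∧
      ∀ s s', A.tr p m s = some s' → h' s = h s' := by
  obtain ⟨s0, s0', hs0⟩ := A.tr_some p m
  obtain ⟨h', h1, h2⟩ := mcshane (A.δ (m :: p)) (A.δ_self _) (A.δ_symm _) (A.δ_tri _)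
    {s | ∃ s', A.tr p m s = some s'} ⟨s0, s0', hs0⟩
    (fun s => match A.tr p m s with
      | some s' => h s'
      | none => 0) (by
      rintro s ⟨s', hs⟩ t ⟨t', ht⟩
      simp only [hs, ht]
      rw [A.δ_tr p m s t s' t' hs ht]
      exact hh s' t')
  refine ⟨h', h1, ?_⟩
  intro s s' hs
  rw [h2 s ⟨s', hs⟩]
  simp only [hs]

theorem parent_ext [Finite S] (p : List M) (m : M) (h' : S → ℝ)
    (hh : ∀ s t, |h' s - h' t| ≤ A.δ (m :: p) s t) :
    ∃ h : S → ℝ, (∀ s t, |h s - h t| ≤ A.δ p s t) ∧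
      ∀ s s', A.tr p m s = some s' → h' s = h s' := by
  classical
  obtain ⟨s0, s0', hs0⟩ := A.tr_some p m
  have hch : ∀ s' : S, (∃ s, A.tr p m s = some s') → ∃ v : ℝ, ∃ s, A.tr p m s = some s' ∧ v = h' s := by
    rintro s' ⟨s, hs⟩
    exact ⟨h' s, s, hs, rfl⟩
  choose! g hg using hch
  obtain ⟨h, h1, h2⟩ := mcshane (A.δ p) (A.δ_self _) (A.δ_symm _) (A.δ_tri _)
    {s' | ∃ s, A.tr p m s = some s'} ⟨s0', s0, hs0⟩ g (by
      intro s' hs' t' ht'
      obtain ⟨s, hs, hgs⟩ := hg s' hs'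
      obtain ⟨t, ht, hgt⟩ := hg t' ht'
      rw [hgs, hgt, ← A.δ_tr p m s t s' t' hs ht]
      exact hh s t)
  refine ⟨h, h1, ?_⟩
  intro s s' hs
  rw [h2 s' ⟨s, hs⟩]
  obtain ⟨t, ht, hgt⟩ := hg s' ⟨s, hs⟩
  rw [hgt, A.tr_inj p m s t s' hs ht]

/-- a compatible family of Lipschitz functions -/
private def Compat (H : List M → S → ℝ) : Prop :=
  (∀ p s t, |H p s - H p t| ≤ A.δ p s t) ∧
    ∀ p m s s', A.tr p m s = some s' → H (m :: p) s = H p s'

open Classical in
/-- rebuild the subtree of `p0` from `h`, and keep `H1` elsewhere -/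
private noncomputable def build [Finite S] (H1 : List M → S → ℝ) (hH1 : A.Compat H1) (p0 : List M)
    (h : S → ℝ) (hh : ∀ s t, |h s - h t| ≤ A.δ p0 s t) :
    (q : List M) → {f : S → ℝ // ∀ s t, |f s - f t| ≤ A.δ q s t}
  | [] => if e : [] = p0 then ⟨h, e ▸ hh⟩ else ⟨H1 [], hH1.1 []⟩
  | m' :: q' => if e : m' :: q' = p0 then ⟨h, e ▸ hh⟩ else
      if p0 <:+ q' then
        ⟨(A.child_ext q' m' (build H1 hH1 p0 h hh q').1 (build H1 hH1 p0 h hh q').2).choose,
          (A.child_ext q' m' (build H1 hH1 p0 h hh q').1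
            (build H1 hH1 p0 h hh q').2).choose_spec.1⟩
      else ⟨H1 (m' :: q'), hH1.1 _⟩

private theorem build_out [Finite S] (H1 : List M → S → ℝ) (hH1 : A.Compat H1) (p0 : List M)
    (h : S → ℝ) (hh : ∀ s t, |h s - h t| ≤ A.δ p0 s t) (q : List M) (hq : ¬ p0 <:+ q) :
    (A.build H1 hH1 p0 h hh q).1 = H1 q := by
  classical
  cases q with
  | nil =>
    have h1 : ¬ ([] : List M) = p0 := fun e => hq (e ▸ List.suffix_refl _)
    rw [build, dif_neg h1]
  | cons m' q' =>
    have h1 : ¬ m' :: q' = p0 := fun e => hq (e ▸ List.suffix_refl _)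
    have h2 : ¬ p0 <:+ q' := fun e => hq (e.trans (List.suffix_cons _ _))
    rw [build, dif_neg h1, if_neg h2]

private theorem build_self [Finite S] (H1 : List M → S → ℝ) (hH1 : A.Compat H1) (p0 : List M)
    (h : S → ℝ) (hh : ∀ s t, |h s - h t| ≤ A.δ p0 s t) :
    (A.build H1 hH1 p0 h hh p0).1 = h := by
  classical
  cases p0 with
  | nil => rw [build, dif_pos rfl]
  | cons m' q' => rw [build, dif_pos rfl]

private theorem build_compat [Finite S] (H1 : List M → S → ℝ) (hH1 : A.Compat H1) (p0 : List M)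
    (h : S → ℝ) (hh : ∀ s t, |h s - h t| ≤ A.δ p0 s t)
    (hentry : ∀ m p, m :: p = p0 → ∀ s s', A.tr p m s = some s' → h s = H1 p s') :
    A.Compat fun q => (A.build H1 hH1 p0 h hh q).1 := by
  classical
  refine ⟨fun q => (A.build H1 hH1 p0 h hh q).2, ?_⟩
  intro q m' s s' hs
  show (A.build H1 hH1 p0 h hh (m' :: q)).1 s = (A.build H1 hH1 p0 h hh q).1 s'
  by_cases e : m' :: q = p0
  · have h1 : ¬ p0 <:+ q := by
      intro h2
      have h3 := h2.length_le
      rw [← e, List.length_cons] at h3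
      omega
    rw [A.build_out H1 hH1 p0 h hh q h1, build, dif_pos e]
    exact hentry m' q e s s' hs
  · by_cases h1 : p0 <:+ q
    · rw [build, dif_neg e, if_pos h1]
      exact (A.child_ext q m' (A.build H1 hH1 p0 h hh q).1
        (A.build H1 hH1 p0 h hh q).2).choose_spec.2 s s' hs
    · rw [A.build_out H1 hH1 p0 h hh q h1, build, dif_neg e, if_neg h1]
      exact hH1.2 q m' s s' hs

private theorem fam_ext [Finite S] (p0 : List M) : ∀ (h : S → ℝ)
    (_ : ∀ s t, |h s - h t| ≤ A.δ p0 s t), ∃ H : List M → S → ℝ, A.Compat H ∧ H p0 = h := by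
  induction p0 with
  | nil =>
    intro h hh
    have h0 : A.Compat fun _ _ => 0 := by
      refine ⟨?_, fun _ _ _ _ _ => rfl⟩
      intro p s t
      have h1 := A.δ_tri p s t s
      rw [A.δ_self, A.δ_symm p t s] at h1
      rw [sub_zero, abs_zero]
      linarith
    exact ⟨_, A.build_compat _ h0 [] h hh (fun m p e => absurd e (List.cons_ne_nil _ _)),
      A.build_self _ h0 [] h hh⟩
  | cons m p ih =>
    intro h hh
    obtain ⟨hp, h1, h2⟩ := A.parent_ext p m h hh
    obtain ⟨H1, h3, h4⟩ := ih hp h1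
    refine ⟨_, A.build_compat H1 h3 (m :: p) h hh ?_, A.build_self H1 h3 (m :: p) h hh⟩
    intro m' p' e s s' hs
    rw [List.cons.injEq] at e
    obtain ⟨rfl, rfl⟩ := e
    rw [h4]
    exact h2 s s' hs

private theorem fam_rep {H : List M → S → ℝ} (hH : A.Compat H) (p : List M) (s : S) :
    H (A.rep p s).1 (A.rep p s).2 = H p s := by
  induction p generalizing s with
  | nil => rfl
  | cons m p ih =>
    cases e : A.tr p m s with
    | none => rw [A.rep_none e]
    | some s' => rw [A.rep_some e, ih s', hH.2 p m s s' e]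

theorem ext [Finite S] (p0 : List M) (h : S → ℝ) (hh : ∀ s t, |h s - h t| ≤ A.δ p0 s t) :
    ∃ F : List M × S → ℝ, (∀ s, F (A.rep p0 s) = h s) ∧
      ∀ p s t, |F (A.rep p s) - F (A.rep p t)| ≤ A.δ p s t := by
  obtain ⟨H, h1, h2⟩ := A.fam_ext p0 h hh
  refine ⟨fun x => H x.1 x.2, ?_, ?_⟩
  · intro s
    show H (A.rep p0 s).1 (A.rep p0 s).2 = h s
    rw [A.fam_rep h1, h2]
  · intro p s t
    show |H (A.rep p s).1 (A.rep p s).2 - H (A.rep p t).1 (A.rep p t).2| ≤ A.δ p s t
    rw [A.fam_rep h1, A.fam_rep h1]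
    exact h1.1 p s t

end Sys

end P235
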