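import Vale.Agent.P235.SysBasic
import Vale.Agent.P235.SysExt

/-! Module S4: the path metric restricted to a bag is the metric of the bag.

Upper bound: one edge (`len_le`), `ciInf_le` (walk lengths are `≥ 0`).  Lower bound: `ext` with
`h r = δ t s r`, `abs_sub_le_len`, induction over the walk, `le_ciInf` (`Nonempty (G.Walk u v)` by
`connected`). -/

open MeasureTheory

namespace P235

namespace Sys

variable {M S : Type} (A : Sys M S)

private theorem walkLength_nonneg [Finite M] [Finite S] {N : ℕ} {u v : A.V N}
    (p : (A.G N).Walk u v) : 0 ≤ walkLength (A.len N) p := by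
  unfold walkLength
  apply List.sum_nonneg
  intro x hx
  rw [List.mem_map] at hx
  obtain ⟨e, he, rfl⟩ := hx
  exact (A.len_pos (p.edges_subset_edgeSet he)).le

private theorem abs_le_walkLength {N : ℕ} (F : List M × S → ℝ)
    (hF : ∀ p s t, |F (A.rep p s) - F (A.rep p t)| ≤ A.δ p s t) {u v : A.V N}
    (p : (A.G N).Walk u v) : |F u.1 - F v.1| ≤ walkLength (A.len N) p := by
  induction p with
  | nil => simp [walkLength]
  | @cons u v w h p ih =>
    have h1 := A.abs_sub_le_len F hF h
    have h2 : walkLength (A.len N) (SimpleGraph.Walk.cons h p) =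
        A.len N s(u, v) + walkLength (A.len N) p := by
      simp [walkLength]
    rw [h2]
    calc |F u.1 - F w.1| ≤ |F u.1 - F v.1| + |F v.1 - F w.1| := abs_sub_le _ _ _
      _ ≤ _ := add_le_add h1 ih

theorem pathDist_vx [Finite M] [Finite S] [Nonempty S] {N : ℕ} (t : Node M N) (s s' : S) :
    pathDist (A.G N) (A.len N) (A.vx t s) (A.vx t s') = A.δ t.1 s s' := by
  have hbdd : BddBelow (Set.range fun p : (A.G N).Walk (A.vx t s) (A.vx t s') =>
      walkLength (A.len N) p) := by
    refine ⟨0, ?_⟩
    rintro x ⟨p, rfl⟩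
    exact A.walkLength_nonneg p
  apply le_antisymm
  · by_cases h : s = s'
    · subst h
      rw [A.δ_self]
      refine (ciInf_le hbdd SimpleGraph.Walk.nil).trans (le_of_eq ?_)
      simp [walkLength]
    · have hadj := A.adj_vx t h
      refine (ciInf_le hbdd (SimpleGraph.Walk.cons hadj SimpleGraph.Walk.nil)).trans ?_
      have h2 : walkLength (A.len N) (SimpleGraph.Walk.cons hadj SimpleGraph.Walk.nil) =
          A.len N s(A.vx t s, A.vx t s') := by
        simp [walkLength]
      rw [h2]
      exact A.len_le t h
  · obtain ⟨F, h1, h2⟩ := A.ext t.1 (fun r => A.δ t.1 s r) (by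
      intro r r'
      rw [abs_le]
      have h3 := A.δ_tri t.1 s r r'
      have h4 := A.δ_tri t.1 s r' r
      have h5 := A.δ_symm t.1 r r'
      constructor <;> linarith)
    have : Nonempty ((A.G N).Walk (A.vx t s) (A.vx t s')) :=
      (A.connected N).preconnected (A.vx t s) (A.vx t s')
    apply le_ciInf
    intro p
    have h3 := A.abs_le_walkLength F h2 p
    have h4 : F (A.vx t s).1 = 0 := (h1 s).trans (A.δ_self _ _)
    have h5 : F (A.vx t s').1 = A.δ t.1 s s' := h1 s'
    rw [h4, h5, zero_sub, abs_neg] at h3
    exact (le_abs_self _).trans h3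

end Sys

end P235
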