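import Vale.Agent.P235.SysTree
import Vale.Agent.P235.SysDist
import Vale.Agent.P235.Penta
import Vale.Agent.P235.Claim

/-!
Module G4: the theorem.  From an embedding `f` of the path metric of `(fsys n).G N` with distortion
`C` we get the strategy `D p s t = ‖f (vx p s) - f (vx p t)‖` (`0` for nodes of depth `> N`).
-/

open MeasureTheory

namespace P235

theorem strat_of_embeds (n : ℕ) [NeZero n] (N : ℕ) (C : ℝ)
    (h : EmbedsL1 (pathDist ((fsys n).G N) ((fsys n).len N)) C) : Nonempty (Strat n N C) := by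
  obtain ⟨Ω, mΩ, μ, f, hf⟩ := h
  have hd : ∀ (p : List (Mv n)) (hp : p.length ≤ N) (s t : Sl n),
      pathDist ((fsys n).G N) ((fsys n).len N) ((fsys n).vx ⟨p, hp⟩ s) ((fsys n).vx ⟨p, hp⟩ t) =
        ‖crd (state p).1 (state p).2 s - crd (state p).1 (state p).2 t‖ :=
    fun p hp s t => (fsys n).pathDist_vx ⟨p, hp⟩ s t
  let D : List (Mv n) → Sl n → Sl n → ℝ := fun p s t =>
    if hp : p.length ≤ N then ‖f ((fsys n).vx ⟨p, hp⟩ s) - f ((fsys n).vx ⟨p, hp⟩ t)‖ else 0
  have hD : ∀ (p : List (Mv n)) (hp : p.length ≤ N) (s t : Sl n),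
      D p s t = ‖f ((fsys n).vx ⟨p, hp⟩ s) - f ((fsys n).vx ⟨p, hp⟩ t)‖ :=
    fun p hp s t => dif_pos hp
  refine ⟨⟨D, ?_, ?_, ?_, ?_, ?_, ?_⟩⟩
  · intro p hp s t
    rw [hD p hp, hD p hp]
    exact norm_sub_rev _ _
  · intro p hp s t u
    rw [hD p hp, hD p hp, hD p hp]
    exact norm_sub_le_norm_sub_add_norm_sub _ _ _
  · intro p hp x x' y₁ y₂ y₃
    simp only [hD p hp]
    exact P235.penta _ _ _ _ _
  · intro p hp s t
    rw [hD p hp, ← hd p hp]
    exact (hf _ _).1
  · intro p hp s t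
    rw [hD p hp, ← hd p hp]
    exact (hf _ _).2
  · intro p m hp s t s' t' hs ht
    have hp' : p.length ≤ N := by
      rw [List.length_cons] at hp
      omega
    have e : ∀ a a', trs p m a = some a' →
        (fsys n).vx ⟨m :: p, hp⟩ a = (fsys n).vx ⟨p, hp'⟩ a' :=
      fun a a' h => Subtype.ext ((fsys n).rep_some h)
    rw [hD _ hp, hD _ hp', e s s' hs, e t t' ht]

/-- no constant below `(4/3)^n` works for all weighted graphs of treewidth at most `2n+8` -/
theorem exponential (n : ℕ) (hn : 1 ≤ n) : ∃ (V : Type) (_ : Finite V) (G : SimpleGraph V)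
    (ℓ : Sym2 V → ℝ), G.Connected ∧ (∀ e ∈ G.edgeSet, 0 < ℓ e) ∧ TreewidthLE G (2 * n + 8) ∧
      ∀ C : ℝ, EmbedsL1 (pathDist G ℓ) C → (4 / 3) ^ n ≤ C := by
  have : NeZero n := ⟨by omega⟩
  obtain ⟨N, hN⟩ := no_strat n
  refine ⟨(fsys n).V N, (fsys n).finite_V N, (fsys n).G N, (fsys n).len N, (fsys n).connected N,
    fun e he => (fsys n).len_pos he, (fsys n).treewidth_le N (2 * n + 8) ?_, fun C hC => ?_⟩
  · simp only [Nat.card_eq_fintype_card, Fintype.card_sum, Fintype.card_prod, Fintype.card_fin,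
      Fintype.card_bool]
    omega
  · by_contra hcon
    obtain ⟨A⟩ := strat_of_embeds n N C hC
    exact hN C (not_le.1 hcon) A

end P235
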