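import Vale.Agent.P235.Sys

/-!
Module F1: the concrete system.  `n + 2` directions.  A bag consists of the hubs `inl (l, ±)` at
`± (L l / 2) e_l` and of the gadget number `j` (`ρ = L (last) / 8`):
`x = inr 0 = -ρ e_j - ρ e_{j+1}`, `x' = inr 1 = ρ e_j - ρ e_{j+1}`, `y₁ = inr 2 = -2ρ e_{j+1}`,
`y₂ = inr 3 = -ρ e_{j+2}`, `y₃ = inr 4 = ρ e_{j+2}`; distances are sup norm distances of the coordinates.
A move `(i, a, b, j')` with `Good i a b` makes `a, b` the new hubs of direction `i`, keeps the hubs of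
directions `< i`, creates new hubs for the directions `> i` with `L = ‖a - b‖`, and a new gadget `j'`.
If `(i, a, b)` is not good, the frame is kept and only the gadget is replaced by gadget `j'`.
-/

open MeasureTheory

namespace P235

/-- slots -/
abbrev Sl (n : ℕ) := (Fin (n + 2) × Bool) ⊕ Fin 5

/-- moves -/
abbrev Mv (n : ℕ) := Fin (n + 2) × Sl n × Sl n × Fin n

/-- directions of the gadget `j` -/
def d0 {n : ℕ} (j : Fin n) : Fin (n + 2) := ⟨j.val, by omega⟩
def d1 {n : ℕ} (j : Fin n) : Fin (n + 2) := ⟨j.val + 1, by omega⟩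
def d2 {n : ℕ} (j : Fin n) : Fin (n + 2) := ⟨j.val + 2, by omega⟩

/-- scale of the gadget -/
noncomputable def rho {n : ℕ} (L : Fin (n + 2) → ℝ) : ℝ := L (Fin.last (n + 1)) / 8

/-- coordinates -/
noncomputable def crd {n : ℕ} (L : Fin (n + 2) → ℝ) (j : Fin n) : Sl n → (Fin (n + 2) → ℝ)
  | Sum.inl (l, true) => Pi.single l (L l / 2)
  | Sum.inl (l, false) => Pi.single l (-(L l / 2))
  | Sum.inr 0 => Pi.single (d0 j) (-rho L) + Pi.single (d1 j) (-rho L)
  | Sum.inr 1 => Pi.single (d0 j) (rho L) + Pi.single (d1 j) (-rho L)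
  | Sum.inr 2 => Pi.single (d1 j) (-(2 * rho L))
  | Sum.inr 3 => Pi.single (d2 j) (-rho L)
  | Sum.inr 4 => Pi.single (d2 j) (rho L)

/-- positive nonincreasing lengths -/
def Adm {n : ℕ} (L : Fin (n + 2) → ℝ) : Prop := (∀ l, 0 < L l) ∧ ∀ l l', l ≤ l' → L l' ≤ L l

/-- `(a, b)` can be made the pair of hubs of direction `i` -/
def Good {n : ℕ} (L : Fin (n + 2) → ℝ) (j : Fin n) (i : Fin (n + 2)) (a b : Sl n) : Prop :=
  (∀ l < i, crd L j a l = 0 ∧ crd L j b l = 0) ∧ ‖crd L j a‖ ≤ L i / 2 ∧ ‖crd L j b‖ ≤ L i / 2 ∧ a ≠ b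

open Classical in
/-- the pair which is really used by the move -/
noncomputable def eff {n : ℕ} (L : Fin (n + 2) → ℝ) (j : Fin n) (m : Mv n) : Fin (n + 2) × Sl n × Sl n :=
  if Good L j m.1 m.2.1 m.2.2.1 then (m.1, m.2.1, m.2.2.1)
  else (Fin.last (n + 1), Sum.inl (Fin.last (n + 1), false), Sum.inl (Fin.last (n + 1), true))

/-- lengths after the move -/
noncomputable def nextL {n : ℕ} (L : Fin (n + 2) → ℝ) (j : Fin n) (m : Mv n) : Fin (n + 2) → ℝ :=
  fun l => if l < (eff L j m).1 then L l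
    else ‖crd L j (eff L j m).2.1 - crd L j (eff L j m).2.2‖

/-- lengths and gadget of a node -/
noncomputable def state {n : ℕ} [NeZero n] : List (Mv n) → (Fin (n + 2) → ℝ) × Fin n
  | [] => (fun _ => 1, 0)
  | m :: p => (nextL (state p).1 (state p).2 m, m.2.2.2)

/-- transition of the slots -/
noncomputable def trs {n : ℕ} [NeZero n] (p : List (Mv n)) (m : Mv n) : Sl n → Option (Sl n)
  | Sum.inl (l, c) =>
    if l < (eff (state p).1 (state p).2 m).1 then some (Sum.inl (l, c))
    else if l = (eff (state p).1 (state p).2 m).1 then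
      some (if c then (eff (state p).1 (state p).2 m).2.2 else (eff (state p).1 (state p).2 m).2.1)
    else none
  | Sum.inr _ => none

theorem crd_inl {n : ℕ} (L : Fin (n + 2) → ℝ) (j : Fin n) (l : Fin (n + 2)) (c : Bool) :
    crd L j (Sum.inl (l, c)) = Pi.single l (if c then L l / 2 else -(L l / 2)) := by
  cases c <;> rfl

theorem norm_crd_inl {n : ℕ} {L : Fin (n + 2) → ℝ} (hL : Adm L) (j : Fin n) (l : Fin (n + 2))
    (c : Bool) : ‖crd L j (Sum.inl (l, c))‖ = L l / 2 := by
  have h := hL.1 l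
  rw [crd_inl, Pi.norm_single, Real.norm_eq_abs]
  cases c
  · simp only [Bool.false_eq_true, if_false, abs_neg]
    rw [abs_of_pos (by linarith)]
  · simp only [if_true]
    rw [abs_of_pos (by linarith)]

/-- the pair of hubs of a direction is good -/
theorem good_hub {n : ℕ} {L : Fin (n + 2) → ℝ} (hL : Adm L) (j : Fin n) (i : Fin (n + 2)) :
    Good L j i (Sum.inl (i, false)) (Sum.inl (i, true)) := by
  refine ⟨fun l hl => ?_, (norm_crd_inl hL j i false).le, (norm_crd_inl hL j i true).le, by simp⟩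
  rw [crd_inl, crd_inl]
  exact ⟨Pi.single_eq_of_ne hl.ne _, Pi.single_eq_of_ne hl.ne _⟩

theorem eff_good {n : ℕ} {L : Fin (n + 2) → ℝ} (hL : Adm L) (j : Fin n) (m : Mv n) :
    Good L j (eff L j m).1 (eff L j m).2.1 (eff L j m).2.2 := by
  unfold eff
  split_ifs with h
  · exact h
  · exact good_hub hL j _

theorem rho_pos {n : ℕ} {L : Fin (n + 2) → ℝ} (hL : Adm L) : 0 < rho L := by
  have := hL.1 (Fin.last (n + 1))
  unfold rho
  linarith

theorem rho_le {n : ℕ} {L : Fin (n + 2) → ℝ} (hL : Adm L) (l : Fin (n + 2)) : 8 * rho L ≤ L l := by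
  have := hL.2 l (Fin.last (n + 1)) (Fin.le_last l)
  unfold rho
  linarith

theorem d01 {n : ℕ} (j : Fin n) : d0 j ≠ d1 j := by simp [d0, d1]
theorem d02 {n : ℕ} (j : Fin n) : d0 j ≠ d2 j := by simp [d0, d2]
theorem d12 {n : ℕ} (j : Fin n) : d1 j ≠ d2 j := by simp [d1, d2]

/-- the coordinates of the gadget points -/
theorem crd_inr_vals {n : ℕ} (L : Fin (n + 2) → ℝ) (j : Fin n) (x : Fin 5) :
    (crd L j (Sum.inr x) (d0 j), crd L j (Sum.inr x) (d1 j), crd L j (Sum.inr x) (d2 j)) =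
      ![(-rho L, -rho L, 0), (rho L, -rho L, 0), (0, -(2 * rho L), 0), (0, 0, -rho L),
        (0, 0, rho L)] x := by
  have h01 := d01 j
  have h02 := d02 j
  have h12 := d12 j
  fin_cases x <;> simp [crd, h01, h02, h12, h01.symm, h02.symm, h12.symm]

theorem norm_crd_inr_le {n : ℕ} {L : Fin (n + 2) → ℝ} (hL : Adm L) (j : Fin n) (x : Fin 5) :
    ‖crd L j (Sum.inr x)‖ ≤ 2 * rho L := by
  have h := rho_pos hL
  have e1 : ‖(-rho L)‖ = rho L := by rw [norm_neg, Real.norm_eq_abs, abs_of_pos h]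
  have e2 : ‖rho L‖ = rho L := by rw [Real.norm_eq_abs, abs_of_pos h]
  have e3 : ‖(-(2 * rho L))‖ = 2 * rho L := by
    rw [norm_neg, Real.norm_eq_abs, abs_of_pos (by linarith)]
  fin_cases x
  · refine (norm_add_le _ _).trans ?_
    rw [Pi.norm_single, Pi.norm_single, e1]
    linarith
  · refine (norm_add_le _ _).trans ?_
    rw [Pi.norm_single, Pi.norm_single, e1, e2]
    linarith
  · refine (Pi.norm_single _).le.trans ?_
    rw [e3]
  · refine (Pi.norm_single _).le.trans ?_
    rw [e1]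
    linarith
  · refine (Pi.norm_single _).le.trans ?_
    rw [e2]
    linarith

theorem crd_inl_ne_inr {n : ℕ} {L : Fin (n + 2) → ℝ} (hL : Adm L) (j : Fin n) (l : Fin (n + 2))
    (c : Bool) (x : Fin 5) : crd L j (Sum.inl (l, c)) ≠ crd L j (Sum.inr x) := by
  intro h
  have h1 := norm_crd_inl hL j l c
  have h2 := norm_crd_inr_le hL j x
  rw [← h, h1] at h2
  have h3 := rho_le hL l
  have h4 := rho_pos hL
  linarith

theorem crd_injective {n : ℕ} {L : Fin (n + 2) → ℝ} (hL : Adm L) (j : Fin n) :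
    Function.Injective (crd L j) := by
  rintro (⟨l, c⟩ | x) (⟨l', c'⟩ | y) h
  · have h1 := congrFun h l
    rw [crd_inl, crd_inl, Pi.single_eq_same] at h1
    have hl := hL.1 l
    by_cases hll : l = l'
    · subst hll
      rw [Pi.single_eq_same] at h1
      cases c <;> cases c' <;> simp at h1 ⊢ <;> linarith
    · rw [Pi.single_eq_of_ne hll] at h1
      cases c <;> simp at h1 <;> linarith
  · exact absurd h (crd_inl_ne_inr hL j l c y)
  · exact absurd h.symm (crd_inl_ne_inr hL j l' c' x)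
  · have hr := rho_pos hL
    have h0 : (crd L j (Sum.inr x) (d0 j), crd L j (Sum.inr x) (d1 j), crd L j (Sum.inr x) (d2 j)) =
        (crd L j (Sum.inr y) (d0 j), crd L j (Sum.inr y) (d1 j), crd L j (Sum.inr y) (d2 j)) := by
      rw [h]
    rw [crd_inr_vals, crd_inr_vals] at h0
    congr 1
    fin_cases x <;> fin_cases y <;> simp at h0 ⊢ <;> linarith

theorem norm_eff_pos {n : ℕ} {L : Fin (n + 2) → ℝ} (hL : Adm L) (j : Fin n) (m : Mv n) :
    0 < ‖crd L j (eff L j m).2.1 - crd L j (eff L j m).2.2‖ :=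
  norm_pos_iff.mpr (sub_ne_zero.mpr fun h' => (eff_good hL j m).2.2.2 (crd_injective hL j h'))

theorem norm_eff_le {n : ℕ} {L : Fin (n + 2) → ℝ} (hL : Adm L) (j : Fin n) (m : Mv n) :
    ‖crd L j (eff L j m).2.1 - crd L j (eff L j m).2.2‖ ≤ L (eff L j m).1 := by
  obtain ⟨-, h1, h2, -⟩ := eff_good hL j m
  have := norm_sub_le (crd L j (eff L j m).2.1) (crd L j (eff L j m).2.2)
  linarith

theorem adm_next {n : ℕ} {L : Fin (n + 2) → ℝ} (hL : Adm L) (j : Fin n) (m : Mv n) :
    Adm (nextL L j m) := by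
  have hp := norm_eff_pos hL j m
  have hle := norm_eff_le hL j m
  refine ⟨fun l => ?_, fun l l' hll => ?_⟩
  · unfold nextL
    split_ifs
    · exact hL.1 l
    · exact hp
  · unfold nextL
    split_ifs with h1 h2 h2
    · exact hL.2 l l' hll
    · exact absurd (lt_of_le_of_lt hll h1) h2
    · exact hle.trans (hL.2 _ _ h2.le)
    · exact le_rfl

theorem adm_state {n : ℕ} [NeZero n] (p : List (Mv n)) : Adm (state p).1 := by
  induction p with
  | nil => exact ⟨fun _ => zero_lt_one, fun _ _ _ => le_rfl⟩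
  | cons m p ih => exact adm_next ih _ m

/-- distance of a hub to a point with vanishing coordinate -/
theorem norm_hub_sub {n : ℕ} (l : Fin (n + 2)) (c : ℝ) (v : Fin (n + 2) → ℝ) (h0 : v l = 0)
    (h1 : ‖v‖ ≤ |c|) : ‖Pi.single l c - v‖ = |c| := by
  apply le_antisymm
  · rw [pi_norm_le_iff_of_nonneg (abs_nonneg c)]
    intro i
    rw [Pi.sub_apply]
    by_cases hi : i = l
    · subst hi
      rw [Pi.single_eq_same, h0, sub_zero, Real.norm_eq_abs]
    · rw [Pi.single_eq_of_ne hi, zero_sub, norm_neg]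
      exact (norm_le_pi_norm v i).trans h1
  · have := norm_le_pi_norm (Pi.single l c - v) l
    rw [Pi.sub_apply, Pi.single_eq_same, h0, sub_zero, Real.norm_eq_abs] at this
    exact this

/-- distance of a hub to a point with vanishing coordinate, in coordinates -/
theorem norm_inl_sub {n : ℕ} {L : Fin (n + 2) → ℝ} (hL : Adm L) (j : Fin n) (l : Fin (n + 2))
    (c : Bool) (v : Fin (n + 2) → ℝ) (h0 : v l = 0) (h1 : ‖v‖ ≤ L l / 2) :
    ‖crd L j (Sum.inl (l, c)) - v‖ = L l / 2 := by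
  have h2 := norm_crd_inl hL j l c
  rw [crd_inl] at h2 ⊢
  rw [Pi.norm_single, Real.norm_eq_abs] at h2
  rw [norm_hub_sub l _ v h0 (by rw [h2]; exact h1), h2]

theorem trs_inl {n : ℕ} [NeZero n] (p : List (Mv n)) (m : Mv n) (s s' : Sl n)
    (hs : trs p m s = some s') :
    (∃ l c, s = Sum.inl (l, c) ∧ l < (eff (state p).1 (state p).2 m).1 ∧ s' = Sum.inl (l, c)) ∨
    (∃ c, s = Sum.inl ((eff (state p).1 (state p).2 m).1, c) ∧
      s' = if c then (eff (state p).1 (state p).2 m).2.2 else (eff (state p).1 (state p).2 m).2.1) := by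
  rcases s with ⟨l, c⟩ | x
  · simp only [trs] at hs
    split_ifs at hs with h1 h2 h3
    · left
      exact ⟨l, c, rfl, h1, (Option.some_inj.1 hs).symm⟩
    all_goals
      right
      subst h2
      refine ⟨c, rfl, ?_⟩
      simp_all
  · simp [trs] at hs

theorem nextL_lt {n : ℕ} {L : Fin (n + 2) → ℝ} {j : Fin n} {m : Mv n} {l : Fin (n + 2)}
    (h : l < (eff L j m).1) : nextL L j m l = L l := by
  unfold nextL
  rw [if_pos h]

theorem nextL_self {n : ℕ} {L : Fin (n + 2) → ℝ} {j : Fin n} {m : Mv n} :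
    nextL L j m (eff L j m).1 = ‖crd L j (eff L j m).2.1 - crd L j (eff L j m).2.2‖ := by
  unfold nextL
  rw [if_neg (lt_irrefl _)]

theorem crd_inl_congr {n : ℕ} {L L' : Fin (n + 2) → ℝ} {l : Fin (n + 2)} (h : L l = L' l) (j j' : Fin n)
    (c : Bool) : crd L j (Sum.inl (l, c)) = crd L' j' (Sum.inl (l, c)) := by
  rw [crd_inl, crd_inl, h]

theorem trs_dist_aux {n : ℕ} {L : Fin (n + 2) → ℝ} (hL : Adm L) (j j' : Fin n) (m : Mv n)
    {l : Fin (n + 2)} (hl : l < (eff L j m).1) (c c' : Bool) :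
    ‖crd (nextL L j m) j' (Sum.inl (l, c)) -
        crd (nextL L j m) j' (Sum.inl ((eff L j m).1, c'))‖ =
      ‖crd L j (Sum.inl (l, c)) -
        crd L j (if c' then (eff L j m).2.2 else (eff L j m).2.1)‖ := by
  have hA := adm_next hL j m
  obtain ⟨g1, g2, g3, g4⟩ := eff_good hL j m
  have hle := hL.2 _ _ hl.le
  have e1 : ‖crd (nextL L j m) j' (Sum.inl (l, c)) -
        crd (nextL L j m) j' (Sum.inl ((eff L j m).1, c'))‖ = nextL L j m l / 2 := by
    apply norm_inl_sub hA
    · rw [crd_inl]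
      exact Pi.single_eq_of_ne hl.ne _
    · rw [norm_crd_inl hA]
      have := hA.2 _ _ hl.le
      linarith
  rw [e1, nextL_lt hl]
  symm
  apply norm_inl_sub hL
  · cases c'
    · exact (g1 l hl).1
    · exact (g1 l hl).2
  · cases c'
    · exact g2.trans (by linarith)
    · exact g3.trans (by linarith)

theorem trs_dist {n : ℕ} [NeZero n] (p : List (Mv n)) (m : Mv n) (s t s' t' : Sl n)
    (hs : trs p m s = some s') (ht : trs p m t = some t') :
    ‖crd (state (m :: p)).1 (state (m :: p)).2 s - crd (state (m :: p)).1 (state (m :: p)).2 t‖ =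
      ‖crd (state p).1 (state p).2 s' - crd (state p).1 (state p).2 t'‖ := by
  have hL := adm_state p
  have e0 : (state (m :: p)).1 = nextL (state p).1 (state p).2 m := rfl
  rw [e0]
  set L := (state p).1 with hLdef
  set j := (state p).2 with hjdef
  set j' := (state (m :: p)).2
  rcases trs_inl p m s s' hs with ⟨l, c, rfl, hl, rfl⟩ | ⟨c, rfl, rfl⟩
  · rcases trs_inl p m t t' ht with ⟨l₂, c₂, rfl, hl₂, rfl⟩ | ⟨c₂, rfl, rfl⟩
    · rw [crd_inl_congr (nextL_lt hl) j' j c, crd_inl_congr (nextL_lt hl₂) j' j c₂]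
    · exact trs_dist_aux hL j j' m hl c c₂
  · rcases trs_inl p m t t' ht with ⟨l₂, c₂, rfl, hl₂, rfl⟩ | ⟨c₂, rfl, rfl⟩
    · rw [norm_sub_rev, trs_dist_aux hL j j' m hl₂ c₂ c, norm_sub_rev]
    · have hp := norm_eff_pos hL j m
      have key : ‖Pi.single (M := fun _ : Fin (n + 2) => ℝ) (eff L j m).1
          (nextL L j m (eff L j m).1 / 2) -
          Pi.single (eff L j m).1 (-(nextL L j m (eff L j m).1 / 2))‖ =
          ‖crd L j (eff L j m).2.1 - crd L j (eff L j m).2.2‖ := by
        rw [← Pi.single_sub, Pi.norm_single, nextL_self, Real.norm_eq_abs]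
        have : ‖crd L j (eff L j m).2.1 - crd L j (eff L j m).2.2‖ / 2 -
          -(‖crd L j (eff L j m).2.1 - crd L j (eff L j m).2.2‖ / 2) =
          ‖crd L j (eff L j m).2.1 - crd L j (eff L j m).2.2‖ := by ring
        rw [this, abs_of_pos hp]
      cases c <;> cases c₂
      · simp
      · rw [norm_sub_rev]
        exact key
      · rw [norm_sub_rev (crd L j _)]
        exact key
      · simp

theorem trs_inj {n : ℕ} [NeZero n] (p : List (Mv n)) (m : Mv n) (s t a : Sl n)
    (hs : trs p m s = some a) (ht : trs p m t = some a) : s = t := by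
  have hL := adm_state p
  obtain ⟨g1, g2, g3, g4⟩ := eff_good hL (state p).2 m
  have key : ∀ (l : Fin (n + 2)) (c c' : Bool), l < (eff (state p).1 (state p).2 m).1 →
      Sum.inl (l, c) ≠ (if c' then (eff (state p).1 (state p).2 m).2.2
        else (eff (state p).1 (state p).2 m).2.1) := by
    intro l c c' hl h
    have h1 : crd (state p).1 (state p).2 (Sum.inl (l, c)) l = 0 := by
      rw [h]
      cases c'
      · exact (g1 l hl).1
      · exact (g1 l hl).2
    rw [crd_inl, Pi.single_eq_same] at h1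
    have h2 := hL.1 l
    cases c <;> simp at h1 <;> linarith
  rcases trs_inl p m s a hs with ⟨l, c, rfl, hl, rfl⟩ | ⟨c, rfl, rfl⟩
  · rcases trs_inl p m t _ ht with ⟨l₂, c₂, rfl, hl₂, h⟩ | ⟨c₂, rfl, h⟩
    · exact h
    · exact absurd h (key l c c₂ hl)
  · rcases trs_inl p m t _ ht with ⟨l₂, c₂, rfl, hl₂, h⟩ | ⟨c₂, rfl, h⟩
    · exact absurd h.symm (key l₂ c₂ c hl₂)
    · cases c <;> cases c₂
      · rfl
      · exact absurd h g4
      · exact absurd h.symm g4
      · rfl

/-- the system of frames and gadgets -/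
noncomputable def fsys (n : ℕ) [NeZero n] : Sys (Mv n) (Sl n) where
  tr := trs
  δ p s t := ‖crd (state p).1 (state p).2 s - crd (state p).1 (state p).2 t‖
  δ_self p s := by simp
  δ_symm p s t := norm_sub_rev _ _
  δ_tri p s t u := norm_sub_le_norm_sub_add_norm_sub _ _ _
  δ_pos p s t h := norm_pos_iff.mpr (sub_ne_zero.mpr fun h' => h (crd_injective (adm_state p) _ h'))
  δ_tr := trs_dist
  tr_inj := trs_inj
  tr_some p m := ⟨Sum.inl ((eff (state p).1 (state p).2 m).1, false),
    (eff (state p).1 (state p).2 m).2.1, by simp [trs]⟩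

end P235
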