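import Vale.Agent.P235.Strat

/-!
Module G1: bookkeeping of the moves `keep`, restart, reset.
-/

open MeasureTheory

namespace P235

/-- the distance of the two hubs -/
theorem norm_hubs {n : ℕ} {L : Fin (n + 2) → ℝ} (hL : Adm L) (j : Fin n) (l : Fin (n + 2)) :
    ‖crd L j (Sum.inl (l, false)) - crd L j (Sum.inl (l, true))‖ = L l := by
  have h1 := hL.1 l
  simp only [crd]
  rw [← Pi.single_sub, Pi.norm_single, Real.norm_eq_abs, abs_of_neg (by linarith)]
  ring

theorem eff_keep {n : ℕ} (L : Fin (n + 2) → ℝ) (j j' : Fin n) :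
    eff L j' (keep j) = (Fin.last (n + 1), Sum.inl (Fin.last (n + 1), false),
      Sum.inl (Fin.last (n + 1), true)) := by
  unfold eff keep
  split <;> rfl

theorem state_keep {n : ℕ} [NeZero n] (p : List (Mv n)) (j : Fin n) :
    state (keep j :: p) = ((state p).1, j) := by
  show (nextL (state p).1 (state p).2 (keep j), (keep j).2.2.2) = _
  refine Prod.ext ?_ rfl
  funext l
  show nextL (state p).1 (state p).2 (keep j) l = (state p).1 l
  unfold nextL
  rw [eff_keep]
  simp only
  split
  · rfl
  · next h =>
    rw [norm_hubs (adm_state p)]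
    have : l = Fin.last (n + 1) := by
      have := Fin.le_last l
      exact le_antisymm this (not_lt.mp h)
    rw [this]

theorem trs_keep {n : ℕ} [NeZero n] (p : List (Mv n)) (j : Fin n) (l : Fin (n + 2)) (c : Bool) :
    trs p (keep j) (Sum.inl (l, c)) = some (Sum.inl (l, c)) := by
  unfold trs
  rw [eff_keep]
  simp only
  split
  · rfl
  · next h =>
    have hl : l = Fin.last (n + 1) := le_antisymm (Fin.le_last l) (not_lt.mp h)
    rw [if_pos hl, hl]
    cases c <;> rfl

/-- effect of a good move on the lengths -/
theorem state_good {n : ℕ} [NeZero n] (p : List (Mv n)) (i : Fin (n + 2)) (a b : Sl n) (j : Fin n)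
    (hg : Good (state p).1 (state p).2 i a b) (l : Fin (n + 2)) :
    (state ((i, a, b, j) :: p)).1 l =
      if l < i then (state p).1 l else ‖crd (state p).1 (state p).2 a - crd (state p).1 (state p).2 b‖ := by
  show nextL (state p).1 (state p).2 (i, a, b, j) l = _
  unfold nextL eff
  simp only
  rw [if_pos hg]

theorem trs_good {n : ℕ} [NeZero n] (p : List (Mv n)) (i : Fin (n + 2)) (a b : Sl n) (j : Fin n)
    (hg : Good (state p).1 (state p).2 i a b) (l : Fin (n + 2)) (c : Bool) (hl : l ≤ i) :
    trs p (i, a, b, j) (Sum.inl (l, c)) =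
      some (if l < i then Sum.inl (l, c) else if c then b else a) := by
  unfold trs eff
  simp only
  rw [if_pos hg]
  simp only
  by_cases h : l < i
  · rw [if_pos h, if_pos h]
  · rw [if_neg h, if_neg h, if_pos (le_antisymm hl (not_lt.mp h))]

namespace Strat

variable {n : ℕ} [NeZero n] {N : ℕ} {C : ℝ} (A : Strat n N C)

theorem one_le_kk (p : List (Mv n)) (hp : p.length ≤ N) (l : Fin (n + 2)) : 1 ≤ A.kk p l := by
  have h := A.lower p hp (Sum.inl (l, false)) (Sum.inl (l, true))
  rw [norm_hubs (adm_state p)] at h
  have h0 := (adm_state p).1 l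
  unfold kk
  rw [le_div_iff₀ h0]
  linarith

theorem kk_le (p : List (Mv n)) (hp : p.length ≤ N) (l : Fin (n + 2)) : A.kk p l ≤ C := by
  have h := A.upper p hp (Sum.inl (l, false)) (Sum.inl (l, true))
  rw [norm_hubs (adm_state p)] at h
  have h0 := (adm_state p).1 l
  unfold kk
  rw [div_le_iff₀ h0]
  linarith

/-- the distances of the hubs are kept by `keep` -/
theorem D_keep (p : List (Mv n)) (j : Fin n) (hp : p.length + 1 ≤ N) (l l' : Fin (n + 2)) (c c' : Bool) :
    A.D (keep j :: p) (Sum.inl (l, c)) (Sum.inl (l', c')) = A.D p (Sum.inl (l, c)) (Sum.inl (l', c')) := by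
  exact A.tr p (keep j) (by simpa using hp) _ _ _ _ (trs_keep p j l c) (trs_keep p j l' c')

/-- after a violation of index `i` the stretch of direction `i` can be increased -/
theorem restart (p : List (Mv n)) (i : Fin (n + 2)) (h : A.Viol p i) (hp : p.length + 2 ≤ N) :
    ∃ p' : List (Mv n), p'.length = p.length + 2 ∧
      (∀ l < i, (state p').1 l = (state p).1 l ∧ A.kk p' l = A.kk p l) ∧
      rho (state p).1 ≤ (state p').1 i ∧
      A.kk p i + eta * rho (state p).1 / (state p).1 i ≤ A.kk p' i := by
  obtain ⟨j, a, b, hg, hr, hv⟩ := h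
  have hL := adm_state p
  have hs : state (keep j :: p) = ((state p).1, j) := state_keep p j
  have hg' : Good (state (keep j :: p)).1 (state (keep j :: p)).2 i a b := by rw [hs]; exact hg
  have hst := state_good (keep j :: p) i a b j hg'
  have htr := trs_good (keep j :: p) i a b j hg'
  have hlen : ((i, a, b, j) :: keep j :: p).length ≤ N := by
    simp only [List.length_cons]
    omega
  have hi : (state ((i, a, b, j) :: keep j :: p)).1 i = ‖crd (state p).1 j a - crd (state p).1 j b‖ := by
    rw [hst, if_neg (lt_irrefl i), hs]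
  have hrho : 0 < rho (state p).1 := by
    unfold rho
    have := hL.1 (Fin.last (n + 1))
    linarith
  refine ⟨(i, a, b, j) :: keep j :: p, by simp, ?_, ?_, ?_⟩
  · intro l hl
    have h1 : (state ((i, a, b, j) :: keep j :: p)).1 l = (state p).1 l := by
      rw [hst, if_pos hl, hs]
    refine ⟨h1, ?_⟩
    have h2 := A.tr (keep j :: p) (i, a, b, j) hlen _ _ _ _ (htr l false hl.le) (htr l true hl.le)
    rw [if_pos hl, if_pos hl, A.D_keep p j (by omega)] at h2
    unfold kk
    rw [h1, h2]
  · rw [hi]; exact hr
  · have h2 := A.tr (keep j :: p) (i, a, b, j) hlen _ _ _ _ (htr i false le_rfl) (htr i true le_rfl)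
    rw [if_neg (lt_irrefl i), if_neg (lt_irrefl i)] at h2
    simp only [Bool.false_eq_true, if_false, if_true] at h2
    have h3 : A.kk ((i, a, b, j) :: keep j :: p) i =
        A.D (keep j :: p) a b / ‖crd (state p).1 j a - crd (state p).1 j b‖ := by
      conv_lhs => unfold kk
      rw [hi, h2]
    rw [h3]
    have hpos : 0 < ‖crd (state p).1 j a - crd (state p).1 j b‖ := lt_of_lt_of_le hrho hr
    rw [le_div_iff₀ hpos]
    have hLi := hL.1 i
    have hle : ‖crd (state p).1 j a - crd (state p).1 j b‖ ≤ (state p).1 i := by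
      have h4 := norm_sub_le (crd (state p).1 j a) (crd (state p).1 j b)
      have h5 := hg.2.1
      have h6 := hg.2.2.1
      linarith
    have heta : 0 < eta := by unfold eta; norm_num
    have h7 : eta * rho (state p).1 / (state p).1 i * ‖crd (state p).1 j a - crd (state p).1 j b‖ ≤
        eta * rho (state p).1 := by
      rw [div_mul_eq_mul_div, div_le_iff₀ hLi]
      exact mul_le_mul_of_nonneg_left hle (by positivity)
    nlinarith [hv, h7]

/-- all lengths of the directions `> i` are reset to the length of direction `i` -/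
theorem reset (p : List (Mv n)) (i : Fin (n + 2)) (hp : p.length + 1 ≤ N) :
    ∃ p' : List (Mv n), p'.length = p.length + 1 ∧
      (∀ l ≤ i, (state p').1 l = (state p).1 l ∧ A.kk p' l = A.kk p l) ∧
      ∀ l, i < l → (state p').1 l = (state p).1 i := by
  have hL := adm_state p
  have hg : Good (state p).1 (state p).2 i (Sum.inl (i, false)) (Sum.inl (i, true)) :=
    good_hub hL _ _
  have hst := state_good p i _ _ (state p).2 hg
  have htr := trs_good p i _ _ (state p).2 hg
  have hlen : ((i, Sum.inl (i, false), Sum.inl (i, true), (state p).2) :: p).length ≤ N := by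
    simpa using hp
  refine ⟨(i, Sum.inl (i, false), Sum.inl (i, true), (state p).2) :: p, by simp, ?_, ?_⟩
  · intro l hl
    have h1 : (state ((i, Sum.inl (i, false), Sum.inl (i, true), (state p).2) :: p)).1 l =
        (state p).1 l := by
      rw [hst]
      split
      · rfl
      · next h =>
        rw [norm_hubs hL]
        rw [le_antisymm hl (not_lt.mp h)]
    refine ⟨h1, ?_⟩
    have h2 := A.tr p _ hlen _ _ _ _ (htr l false hl) (htr l true hl)
    have h3 : ∀ c : Bool, (if l < i then (Sum.inl (l, c) : Sl n) else
        if c = true then Sum.inl (i, true) else Sum.inl (i, false)) = Sum.inl (l, c) := by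
      intro c
      by_cases h : l < i
      · rw [if_pos h]
      · rw [if_neg h, le_antisymm hl (not_lt.mp h)]
        cases c <;> rfl
    rw [h3, h3] at h2
    unfold kk
    rw [h1, h2]
  · intro l hl
    rw [hst, if_neg (not_lt.mpr hl.le), norm_hubs hL]

end Strat

end P235
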