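import Vale.Agent.P235.Moves

/-!
Module G2: every frame has a violation if `C < (4/3)^n`.

Assume no violation.  Fix the gadget `j`, `q = keep j :: p`, `D = A.D q`, `L = (state p).1`, `ρ = rho L`,
`k l = kk p l`, `i = d0 j, d1 j, d2 j` (indices `j, j+1, j+2` below).
Good pairs of direction `j`: `(hub j -, x)` and `(x', hub j +)` of length `L j / 2 - ρ`, `(x, yₐ)`,
`(yₐ, x')` of length `ρ`; so `D x x' ≥ k_j L_j - 2 (k_j (L_j/2 - ρ) + η ρ) = 2 ρ k_j - 2 η ρ`.
Direction `j+1`: `(hub -, y₁)` of length `L/2 - 2ρ`, `(y₂, hub +)`, `(y₃, hub +)` of length `L/2`; so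
`D y₁ y₂, D y₁ y₃ ≥ 2 ρ k_{j+1} - 2 η ρ`.  Direction `j+2`: `(hub -, y₂)`, `(y₃, hub +)` of length
`L/2 - ρ`; so `D y₂ y₃ ≥ 2 ρ k_{j+2} - 2 η ρ`.  The pentagonal inequality gives
`k_j ≥ k_{j+1} + k_{j+2}/2 - 7η/2 ≥ k_{j+1} + (4/9) k_{j+2}` (as `k ≥ 1`, `η = 1/63`), hence
`k_0 ≥ (4/3)^n` by induction, but `k_0 ≤ C`.
-/

open MeasureTheory

namespace P235

/-- the recursion -/
theorem rec_bound (n : ℕ) (k : ℕ → ℝ) (h1 : ∀ l, l ≤ n + 1 → 1 ≤ k l)
    (h : ∀ j, j + 1 ≤ n → k (j + 1) + 4 / 9 * k (j + 2) ≤ k j) : (4 / 3) ^ n ≤ k 0 := by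
  have key : ∀ m, m ≤ n → (4 / 3 : ℝ) ^ m ≤ k (n - m) ∧ 3 / 4 * (4 / 3 : ℝ) ^ m ≤ k (n - m + 1) := by
    intro m
    induction m with
    | zero =>
      intro _
      have h2 := h1 n (by omega)
      have h3 := h1 (n + 1) le_rfl
      simp only [Nat.sub_zero, pow_zero]
      constructor <;> linarith
    | succ m ih =>
      intro hm
      obtain ⟨h2, h3⟩ := ih (by omega)
      have h4 := h (n - (m + 1)) (by omega)
      have e1 : n - (m + 1) + 1 = n - m := by omega
      have e2 : n - (m + 1) + 2 = n - m + 1 := by omega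
      rw [e1, e2] at h4
      rw [e1, pow_succ]
      constructor <;> linarith
  have := (key n le_rfl).1
  simpa using this

namespace Strat

variable {n : ℕ} [NeZero n] {N : ℕ} {C : ℝ} (A : Strat n N C)

/-- the norm of a vector supported on the three directions of the gadget -/
theorem norm_three {n : ℕ} (j : Fin n) (a b c r : ℝ) (ha : |a| ≤ r) (hb : |b| ≤ r) (hc : |c| ≤ r)
    (h : |a| = r ∨ |b| = r ∨ |c| = r) :
    ‖(Pi.single (d0 j) a + Pi.single (d1 j) b + Pi.single (d2 j) c : Fin (n + 2) → ℝ)‖ = r := by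
  have h01 : d0 j ≠ d1 j := by unfold d0 d1; simp [Fin.ext_iff]
  have h02 : d0 j ≠ d2 j := by unfold d0 d2; simp [Fin.ext_iff]
  have h12 : d1 j ≠ d2 j := by unfold d1 d2; simp [Fin.ext_iff]
  have hr : 0 ≤ r := (abs_nonneg a).trans ha
  apply le_antisymm
  · rw [pi_norm_le_iff_of_nonneg hr]
    intro l
    simp only [Pi.add_apply, Real.norm_eq_abs]
    by_cases h0 : l = d0 j
    · subst h0
      simpa [Pi.single_apply, h01, h02] using ha
    · by_cases h1 : l = d1 j
      · subst h1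
        simpa [Pi.single_apply, h01.symm, h12] using hb
      · by_cases h2 : l = d2 j
        · subst h2
          simpa [Pi.single_apply, h02.symm, h12.symm] using hc
        · simp [Pi.single_apply, h0, h1, h2, hr]
  · rcases h with h | h | h
    · have := norm_le_pi_norm
        (Pi.single (d0 j) a + Pi.single (d1 j) b + Pi.single (d2 j) c : Fin (n + 2) → ℝ) (d0 j)
      rw [← h]
      simpa [Pi.single_apply, h01, h02] using this
    · have := norm_le_pi_norm
        (Pi.single (d0 j) a + Pi.single (d1 j) b + Pi.single (d2 j) c : Fin (n + 2) → ℝ) (d1 j)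
      rw [← h]
      simpa [Pi.single_apply, h01.symm, h12] using this
    · have := norm_le_pi_norm
        (Pi.single (d0 j) a + Pi.single (d1 j) b + Pi.single (d2 j) c : Fin (n + 2) → ℝ) (d2 j)
      rw [← h]
      simpa [Pi.single_apply, h02.symm, h12.symm] using this

/-- the vector with coordinates `a, b, c` in the three directions of the gadget -/
noncomputable def v3 {n : ℕ} (j : Fin n) (a b c : ℝ) : Fin (n + 2) → ℝ :=
  Pi.single (d0 j) a + Pi.single (d1 j) b + Pi.single (d2 j) c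

theorem v3_sub {n : ℕ} (j : Fin n) (a b c a' b' c' : ℝ) :
    v3 j a b c - v3 j a' b' c' = v3 j (a - a') (b - b') (c - c') := by
  unfold v3
  rw [Pi.single_sub, Pi.single_sub, Pi.single_sub]
  abel

theorem norm_v3 {n : ℕ} (j : Fin n) (a b c r : ℝ) (ha : |a| ≤ r) (hb : |b| ≤ r) (hc : |c| ≤ r)
    (h : |a| = r ∨ |b| = r ∨ |c| = r) : ‖v3 j a b c‖ = r := norm_three j a b c r ha hb hc h

theorem v3_lt {n : ℕ} (j : Fin n) (a b c : ℝ) (l : Fin (n + 2)) (hl : l < d0 j) :
    v3 j a b c l = 0 := by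
  have h0 : l ≠ d0 j := hl.ne
  have h1 : l ≠ d1 j := by
    intro h
    rw [h, Fin.lt_def] at hl
    simp [d0, d1] at hl
  have h2 : l ≠ d2 j := by
    intro h
    rw [h, Fin.lt_def] at hl
    simp [d0, d2] at hl
  unfold v3
  simp [Pi.single_apply, h0, h1, h2]

theorem v3_lt1 {n : ℕ} (j : Fin n) (b c : ℝ) (l : Fin (n + 2)) (hl : l < d1 j) :
    v3 j 0 b c l = 0 := by
  have h1 : l ≠ d1 j := hl.ne
  have h2 : l ≠ d2 j := by
    intro h
    rw [h, Fin.lt_def] at hl
    simp [d1, d2] at hl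
  unfold v3
  simp [Pi.single_apply, h1, h2]

theorem v3_lt2 {n : ℕ} (j : Fin n) (c : ℝ) (l : Fin (n + 2)) (hl : l < d2 j) :
    v3 j 0 0 c l = 0 := by
  have h2 : l ≠ d2 j := hl.ne
  unfold v3
  simp [Pi.single_apply, h2]

section crds

variable {n : ℕ} (L : Fin (n + 2) → ℝ) (j : Fin n)

theorem crd_h0 (c : Bool) : crd L j (Sum.inl (d0 j, c)) =
    v3 j (if c then L (d0 j) / 2 else -(L (d0 j) / 2)) 0 0 := by
  cases c <;> simp [crd, v3]

theorem crd_h1 (c : Bool) : crd L j (Sum.inl (d1 j, c)) =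
    v3 j 0 (if c then L (d1 j) / 2 else -(L (d1 j) / 2)) 0 := by
  cases c <;> simp [crd, v3]

theorem crd_h2 (c : Bool) : crd L j (Sum.inl (d2 j, c)) =
    v3 j 0 0 (if c then L (d2 j) / 2 else -(L (d2 j) / 2)) := by
  cases c <;> simp [crd, v3]

theorem crd_0 : crd L j (Sum.inr 0) = v3 j (-rho L) (-rho L) 0 := by simp [crd, v3]
theorem crd_1 : crd L j (Sum.inr 1) = v3 j (rho L) (-rho L) 0 := by simp [crd, v3]
theorem crd_2 : crd L j (Sum.inr 2) = v3 j 0 (-(2 * rho L)) 0 := by simp [crd, v3]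
theorem crd_3 : crd L j (Sum.inr 3) = v3 j 0 0 (-rho L) := by simp [crd, v3]
theorem crd_4 : crd L j (Sum.inr 4) = v3 j 0 0 (rho L) := by simp [crd, v3]

end crds

/-- no violation: upper bound for good pairs -/
theorem le_of_not_viol (p : List (Mv n)) {i : Fin (n + 2)} (h : ¬ A.Viol p i) (j : Fin n) {a b : Sl n}
    (hg : Good (state p).1 j i a b)
    (hr : rho (state p).1 ≤ ‖crd (state p).1 j a - crd (state p).1 j b‖) :
    A.D (keep j :: p) a b ≤
      A.kk p i * ‖crd (state p).1 j a - crd (state p).1 j b‖ + eta * rho (state p).1 := by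
  by_contra hc
  exact h ⟨j, a, b, hg, hr, not_le.mp hc⟩

/-- no violation, in coordinates -/
theorem le_v3 (p : List (Mv n)) {i : Fin (n + 2)} (h : ¬ A.Viol p i) (j : Fin n) {a b : Sl n}
    {x y z x' y' z' r : ℝ} (ha : crd (state p).1 j a = v3 j x y z)
    (hb : crd (state p).1 j b = v3 j x' y' z') (hab : a ≠ b)
    (hi : (i = d0 j) ∨ (i = d1 j ∧ x = 0 ∧ x' = 0) ∨ (i = d2 j ∧ x = 0 ∧ x' = 0 ∧ y = 0 ∧ y' = 0))
    (h1 : |x| ≤ (state p).1 i / 2) (h2 : |y| ≤ (state p).1 i / 2) (h3 : |z| ≤ (state p).1 i / 2)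
    (h1' : |x'| ≤ (state p).1 i / 2) (h2' : |y'| ≤ (state p).1 i / 2) (h3' : |z'| ≤ (state p).1 i / 2)
    (hr : rho (state p).1 ≤ r)
    (hx : |x - x'| ≤ r) (hy : |y - y'| ≤ r) (hz : |z - z'| ≤ r)
    (he : |x - x'| = r ∨ |y - y'| = r ∨ |z - z'| = r) :
    A.D (keep j :: p) a b ≤ A.kk p i * r + eta * rho (state p).1 := by
  have hn : ‖crd (state p).1 j a - crd (state p).1 j b‖ = r := by
    rw [ha, hb, v3_sub]
    exact norm_v3 j _ _ _ _ hx hy hz he
  have hle : ∀ x y z : ℝ, |x| ≤ (state p).1 i / 2 → |y| ≤ (state p).1 i / 2 →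
      |z| ≤ (state p).1 i / 2 → ‖v3 j x y z‖ ≤ (state p).1 i / 2 := by
    intro x y z h1 h2 h3
    have h5 : ‖v3 j x y z‖ = max |x| (max |y| |z|) := by
      apply norm_v3
      · exact le_max_left _ _
      · exact (le_max_left _ _).trans (le_max_right _ _)
      · exact (le_max_right _ _).trans (le_max_right _ _)
      · rcases le_total |x| (max |y| |z|) with h | h
        · rcases le_total |y| |z| with h' | h'
          · right; right
            rw [max_eq_right h, max_eq_right h']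
          · right; left
            rw [max_eq_right h, max_eq_left h']
        · left; rw [max_eq_left h]
    rw [h5]
    exact max_le h1 (max_le h2 h3)
  have hg : Good (state p).1 j i a b := by
    refine ⟨?_, ?_, ?_, hab⟩
    · intro l hl
      rw [ha, hb]
      rcases hi with hi | ⟨hi, hx0, hx0'⟩ | ⟨hi, hx0, hx0', hy0, hy0'⟩
      · subst hi
        exact ⟨v3_lt j _ _ _ l hl, v3_lt j _ _ _ l hl⟩
      · subst hi hx0 hx0'
        exact ⟨v3_lt1 j _ _ l hl, v3_lt1 j _ _ l hl⟩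
      · subst hi hx0 hx0' hy0 hy0'
        exact ⟨v3_lt2 j _ l hl, v3_lt2 j _ l hl⟩
    · rw [ha]; exact hle _ _ _ h1 h2 h3
    · rw [hb]; exact hle _ _ _ h1' h2' h3'
  have := A.le_of_not_viol p h j hg (by rw [hn]; exact hr)
  rwa [hn] at this

/-- the inequality given by the gadget `j` -/
theorem gadget_ineq (p : List (Mv n)) (hp : p.length + 1 ≤ N) (h : ∀ i, ¬ A.Viol p i) (j : Fin n) :
    A.kk p (d1 j) + A.kk p (d2 j) / 2 - 7 / 2 * eta ≤ A.kk p (d0 j) := by
  have hL := adm_state p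
  set L := (state p).1 with hLdef
  have hrho : 0 < rho L := by
    unfold rho
    have := hL.1 (Fin.last (n + 1))
    linarith
  have hl : ∀ i : Fin (n + 2), 8 * rho L ≤ L i := by
    intro i
    have := hL.2 i (Fin.last (n + 1)) (Fin.le_last i)
    unfold rho
    linarith
  have l0 := hl (d0 j)
  have l1 := hl (d1 j)
  have l2 := hl (d2 j)
  have hq : (keep j :: p).length ≤ N := by simpa using hp
  have hub : ∀ l, A.D (keep j :: p) (Sum.inl (l, false)) (Sum.inl (l, true)) = A.kk p l * L l := by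
    intro l
    rw [A.D_keep p j hp]
    unfold kk
    rw [div_mul_cancel₀ _ (hL.1 l).ne']
  set r := rho L with hrdef
  have ar : |r| = r := abs_of_pos hrho
  have anr : |-r| = r := by rw [abs_neg, ar]
  -- direction `d0`
  have b1 : A.D (keep j :: p) (Sum.inl (d0 j, false)) (Sum.inr 0) ≤
      A.kk p (d0 j) * (L (d0 j) / 2 - r) + eta * r := by
    refine A.le_v3 p (h _) j (crd_h0 L j false) (crd_0 L j) (by simp) (Or.inl rfl)
      ?_ ?_ ?_ ?_ ?_ ?_ ?_ ?_ ?_ ?_ ?_ <;>
      (try simp only [Bool.false_eq_true, if_false, ← hLdef, ← hrdef])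
    · rw [abs_neg, abs_of_nonneg (by linarith)]
    · rw [abs_zero]; linarith
    · rw [abs_zero]; linarith
    · rw [anr]; linarith
    · rw [anr]; linarith
    · rw [abs_zero]; linarith
    · linarith
    · rw [abs_of_nonpos (by linarith)]; linarith
    · rw [abs_of_nonneg (by linarith)]; linarith
    · rw [abs_of_nonneg (by linarith)]; linarith
    · left; rw [abs_of_nonpos (by linarith)]; linarith
  have b2 : A.D (keep j :: p) (Sum.inr 1) (Sum.inl (d0 j, true)) ≤
      A.kk p (d0 j) * (L (d0 j) / 2 - r) + eta * r := by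
    refine A.le_v3 p (h _) j (crd_1 L j) (crd_h0 L j true) (by simp) (Or.inl rfl)
      ?_ ?_ ?_ ?_ ?_ ?_ ?_ ?_ ?_ ?_ ?_ <;>
      (try simp only [if_true, ← hLdef, ← hrdef])
    · rw [ar]; linarith
    · rw [anr]; linarith
    · rw [abs_zero]; linarith
    · rw [abs_of_nonneg (by linarith)]
    · rw [abs_zero]; linarith
    · rw [abs_zero]; linarith
    · linarith
    · rw [abs_of_nonpos (by linarith)]; linarith
    · rw [abs_of_nonpos (by linarith)]; linarith
    · rw [abs_of_nonneg (by linarith)]; linarith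
    · left; rw [abs_of_nonpos (by linarith)]; linarith
  -- the six short pairs
  have short : ∀ (x y z x' y' z' : ℝ) (a b : Sl n), crd L j a = v3 j x y z → crd L j b = v3 j x' y' z' →
      a ≠ b → |x| ≤ 2 * r → |y| ≤ 2 * r → |z| ≤ 2 * r → |x'| ≤ 2 * r → |y'| ≤ 2 * r → |z'| ≤ 2 * r →
      |x - x'| = r → |y - y'| ≤ r → |z - z'| ≤ r →
      A.D (keep j :: p) a b ≤ A.kk p (d0 j) * r + eta * r := by
    intro x y z x' y' z' a b ha hb hab h1 h2 h3 h4 h5 h6 h7 h8 h9
    refine A.le_v3 p (h _) j ha hb hab (Or.inl rfl) ?_ ?_ ?_ ?_ ?_ ?_ le_rfl h7.le h8 h9 (Or.inl h7) <;>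
      linarith
  have z2 : |(0 : ℝ)| ≤ 2 * r := by rw [abs_zero]; linarith
  have r2 : |r| ≤ 2 * r := by rw [ar]; linarith
  have nr2 : |-r| ≤ 2 * r := by rw [anr]; linarith
  have n2r2 : |-(2 * r)| ≤ 2 * r := by rw [abs_neg, abs_of_nonneg (by linarith)]
  have c02 : A.D (keep j :: p) (Sum.inr 0) (Sum.inr 2) ≤ A.kk p (d0 j) * r + eta * r := by
    refine short _ _ _ _ _ _ _ _ (crd_0 L j) (crd_2 L j) (by simp) nr2 nr2 z2 z2 n2r2 z2 ?_ ?_ ?_
    · rw [sub_zero, anr]
    · rw [abs_of_nonneg (by linarith)]; linarith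
    · rw [sub_zero, abs_zero]; linarith
  have c21 : A.D (keep j :: p) (Sum.inr 2) (Sum.inr 1) ≤ A.kk p (d0 j) * r + eta * r := by
    refine short _ _ _ _ _ _ _ _ (crd_2 L j) (crd_1 L j) (by simp) z2 n2r2 z2 r2 nr2 z2 ?_ ?_ ?_
    · rw [zero_sub, anr]
    · rw [abs_of_nonpos (by linarith)]; linarith
    · rw [sub_zero, abs_zero]; linarith
  have c03 : A.D (keep j :: p) (Sum.inr 0) (Sum.inr 3) ≤ A.kk p (d0 j) * r + eta * r := by
    refine short _ _ _ _ _ _ _ _ (crd_0 L j) (crd_3 L j) (by simp) nr2 nr2 z2 z2 z2 nr2 ?_ ?_ ?_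
    · rw [sub_zero, anr]
    · rw [sub_zero, anr]
    · rw [zero_sub, neg_neg, ar]
  have c31 : A.D (keep j :: p) (Sum.inr 3) (Sum.inr 1) ≤ A.kk p (d0 j) * r + eta * r := by
    refine short _ _ _ _ _ _ _ _ (crd_3 L j) (crd_1 L j) (by simp) z2 z2 nr2 r2 nr2 z2 ?_ ?_ ?_
    · rw [zero_sub, anr]
    · rw [zero_sub, neg_neg, ar]
    · rw [sub_zero, anr]
  have c04 : A.D (keep j :: p) (Sum.inr 0) (Sum.inr 4) ≤ A.kk p (d0 j) * r + eta * r := by
    refine short _ _ _ _ _ _ _ _ (crd_0 L j) (crd_4 L j) (by simp) nr2 nr2 z2 z2 z2 r2 ?_ ?_ ?_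
    · rw [sub_zero, anr]
    · rw [sub_zero, anr]
    · rw [zero_sub, anr]
  have c41 : A.D (keep j :: p) (Sum.inr 4) (Sum.inr 1) ≤ A.kk p (d0 j) * r + eta * r := by
    refine short _ _ _ _ _ _ _ _ (crd_4 L j) (crd_1 L j) (by simp) z2 z2 r2 r2 nr2 z2 ?_ ?_ ?_
    · rw [zero_sub, anr]
    · rw [zero_sub, neg_neg, ar]
    · rw [sub_zero, ar]
  -- direction `d1`
  have e1 : A.D (keep j :: p) (Sum.inl (d1 j, false)) (Sum.inr 2) ≤
      A.kk p (d1 j) * (L (d1 j) / 2 - 2 * r) + eta * r := by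
    refine A.le_v3 p (h _) j (crd_h1 L j false) (crd_2 L j) (by simp) (Or.inr (Or.inl ⟨rfl, rfl, rfl⟩))
      ?_ ?_ ?_ ?_ ?_ ?_ ?_ ?_ ?_ ?_ ?_ <;>
      (try simp only [Bool.false_eq_true, if_false, ← hLdef, ← hrdef])
    · rw [abs_zero]; linarith
    · rw [abs_neg, abs_of_nonneg (by linarith)]
    · rw [abs_zero]; linarith
    · rw [abs_zero]; linarith
    · linarith
    · rw [abs_zero]; linarith
    · linarith
    · rw [sub_zero, abs_zero]; linarith
    · rw [abs_of_nonpos (by linarith)]; linarith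
    · rw [sub_zero, abs_zero]; linarith
    · right; left; rw [abs_of_nonpos (by linarith)]; linarith
  have e2 : A.D (keep j :: p) (Sum.inr 3) (Sum.inl (d1 j, true)) ≤
      A.kk p (d1 j) * (L (d1 j) / 2) + eta * r := by
    refine A.le_v3 p (h _) j (crd_3 L j) (crd_h1 L j true) (by simp) (Or.inr (Or.inl ⟨rfl, rfl, rfl⟩))
      ?_ ?_ ?_ ?_ ?_ ?_ ?_ ?_ ?_ ?_ ?_ <;>
      (try simp only [if_true, ← hLdef, ← hrdef])
    · rw [abs_zero]; linarith
    · rw [abs_zero]; linarith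
    · linarith
    · rw [abs_zero]; linarith
    · rw [abs_of_nonneg (by linarith)]
    · rw [abs_zero]; linarith
    · linarith
    · rw [sub_zero, abs_zero]; linarith
    · rw [abs_of_nonpos (by linarith)]; linarith
    · rw [sub_zero, anr]; linarith
    · right; left; rw [abs_of_nonpos (by linarith)]; linarith
  have e3 : A.D (keep j :: p) (Sum.inr 4) (Sum.inl (d1 j, true)) ≤
      A.kk p (d1 j) * (L (d1 j) / 2) + eta * r := by
    refine A.le_v3 p (h _) j (crd_4 L j) (crd_h1 L j true) (by simp) (Or.inr (Or.inl ⟨rfl, rfl, rfl⟩))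
      ?_ ?_ ?_ ?_ ?_ ?_ ?_ ?_ ?_ ?_ ?_ <;>
      (try simp only [if_true, ← hLdef, ← hrdef])
    · rw [abs_zero]; linarith
    · rw [abs_zero]; linarith
    · linarith
    · rw [abs_zero]; linarith
    · rw [abs_of_nonneg (by linarith)]
    · rw [abs_zero]; linarith
    · linarith
    · rw [sub_zero, abs_zero]; linarith
    · rw [abs_of_nonpos (by linarith)]; linarith
    · rw [sub_zero, ar]; linarith
    · right; left; rw [abs_of_nonpos (by linarith)]; linarith
  -- direction `d2`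
  have f1 : A.D (keep j :: p) (Sum.inl (d2 j, false)) (Sum.inr 3) ≤
      A.kk p (d2 j) * (L (d2 j) / 2 - r) + eta * r := by
    refine A.le_v3 p (h _) j (crd_h2 L j false) (crd_3 L j) (by simp)
      (Or.inr (Or.inr ⟨rfl, rfl, rfl, rfl, rfl⟩)) ?_ ?_ ?_ ?_ ?_ ?_ ?_ ?_ ?_ ?_ ?_ <;>
      (try simp only [Bool.false_eq_true, if_false, ← hLdef, ← hrdef])
    · rw [abs_zero]; linarith
    · rw [abs_zero]; linarith
    · rw [abs_neg, abs_of_nonneg (by linarith)]
    · rw [abs_zero]; linarith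
    · rw [abs_zero]; linarith
    · linarith
    · linarith
    · rw [sub_zero, abs_zero]; linarith
    · rw [sub_zero, abs_zero]; linarith
    · rw [abs_of_nonpos (by linarith)]; linarith
    · right; right; rw [abs_of_nonpos (by linarith)]; linarith
  have f2 : A.D (keep j :: p) (Sum.inr 4) (Sum.inl (d2 j, true)) ≤
      A.kk p (d2 j) * (L (d2 j) / 2 - r) + eta * r := by
    refine A.le_v3 p (h _) j (crd_4 L j) (crd_h2 L j true) (by simp)
      (Or.inr (Or.inr ⟨rfl, rfl, rfl, rfl, rfl⟩)) ?_ ?_ ?_ ?_ ?_ ?_ ?_ ?_ ?_ ?_ ?_ <;>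
      (try simp only [if_true, ← hLdef, ← hrdef])
    · rw [abs_zero]; linarith
    · rw [abs_zero]; linarith
    · linarith
    · rw [abs_zero]; linarith
    · rw [abs_zero]; linarith
    · rw [abs_of_nonneg (by linarith)]
    · linarith
    · rw [sub_zero, abs_zero]; linarith
    · rw [sub_zero, abs_zero]; linarith
    · rw [abs_of_nonpos (by linarith)]; linarith
    · right; right; rw [abs_of_nonpos (by linarith)]; linarith
  have t := A.tri (keep j :: p) hq
  have u0 := hub (d0 j)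
  have u1 := hub (d1 j)
  have u2 := hub (d2 j)
  have g0 : 2 * r * A.kk p (d0 j) - 2 * eta * r ≤ A.D (keep j :: p) (Sum.inr 0) (Sum.inr 1) := by
    have t1 := t (Sum.inl (d0 j, false)) (Sum.inr 0) (Sum.inl (d0 j, true))
    have t2 := t (Sum.inr 0) (Sum.inr 1) (Sum.inl (d0 j, true))
    linarith
  have g1 : 2 * r * A.kk p (d1 j) - 2 * eta * r ≤ A.D (keep j :: p) (Sum.inr 2) (Sum.inr 3) := by
    have t1 := t (Sum.inl (d1 j, false)) (Sum.inr 2) (Sum.inl (d1 j, true))
    have t2 := t (Sum.inr 2) (Sum.inr 3) (Sum.inl (d1 j, true))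
    linarith
  have g2 : 2 * r * A.kk p (d1 j) - 2 * eta * r ≤ A.D (keep j :: p) (Sum.inr 2) (Sum.inr 4) := by
    have t1 := t (Sum.inl (d1 j, false)) (Sum.inr 2) (Sum.inl (d1 j, true))
    have t2 := t (Sum.inr 2) (Sum.inr 4) (Sum.inl (d1 j, true))
    linarith
  have g3 : 2 * r * A.kk p (d2 j) - 2 * eta * r ≤ A.D (keep j :: p) (Sum.inr 3) (Sum.inr 4) := by
    have t1 := t (Sum.inl (d2 j, false)) (Sum.inr 3) (Sum.inl (d2 j, true))
    have t2 := t (Sum.inr 3) (Sum.inr 4) (Sum.inl (d2 j, true))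
    linarith
  have pe := A.penta (keep j :: p) hq (Sum.inr 0) (Sum.inr 1) (Sum.inr 2) (Sum.inr 3) (Sum.inr 4)
  have fin : r * (A.kk p (d1 j) + A.kk p (d2 j) / 2 - 7 / 2 * eta) ≤ r * A.kk p (d0 j) := by
    linarith
  exact le_of_mul_le_mul_left fin hrho

theorem exists_viol (hC : C < (4 / 3) ^ n) (p : List (Mv n)) (hp : p.length + 1 ≤ N) :
    ∃ i, A.Viol p i := by
  by_contra hcon
  push Not at hcon
  have key := rec_bound n (fun l => if h : l < n + 2 then A.kk p ⟨l, h⟩ else 1) ?_ ?_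
  · simp only [Nat.zero_lt_succ, dif_pos, show 0 < n + 2 by omega] at key
    have := A.kk_le p (by omega) ⟨0, by omega⟩
    linarith
  · intro l hl
    have hl' : l < n + 2 := by omega
    simp only [hl', dif_pos]
    exact A.one_le_kk p (by omega) _
  · intro j hj
    have h0 : j < n + 2 := by omega
    have h1 : j + 1 < n + 2 := by omega
    have h2 : j + 2 < n + 2 := by omega
    simp only [h0, h1, h2, dif_pos]
    have g := A.gadget_ineq p hp hcon ⟨j, by omega⟩
    have g2 := A.one_le_kk p (by omega) (d2 ⟨j, by omega⟩)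
    have e0 : d0 (⟨j, by omega⟩ : Fin n) = ⟨j, h0⟩ := rfl
    have e1 : d1 (⟨j, by omega⟩ : Fin n) = ⟨j + 1, h1⟩ := rfl
    have e2 : d2 (⟨j, by omega⟩ : Fin n) = ⟨j + 2, h2⟩ := rfl
    rw [e0, e1, e2] at g
    rw [e2] at g2
    unfold eta at g
    linarith

end Strat

end P235
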