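import Vale.Agent.P235.Frame

/-!
Strategies: the restriction of a semimetric on the vertices to all bags.
`kk p l`: stretch of the hubs of direction `l`.  `Viol p i`: some good pair of direction `i` of some
gadget attached to the frame of `p` is stretched by more than `kk p i` (plus an error).
-/

open MeasureTheory

namespace P235

/-- restriction to the bags of a semimetric with the pentagonal inequality and distortion at most `C` -/
structure Strat (n : ℕ) [NeZero n] (N : ℕ) (C : ℝ) where
  D : List (Mv n) → Sl n → Sl n → ℝ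
  symm : ∀ p, p.length ≤ N → ∀ s t, D p s t = D p t s
  tri : ∀ p, p.length ≤ N → ∀ s t u, D p s u ≤ D p s t + D p t u
  penta : ∀ p, p.length ≤ N → ∀ x x' y₁ y₂ y₃, D p x x' + D p y₁ y₂ + D p y₁ y₃ + D p y₂ y₃ ≤
    D p x y₁ + D p y₁ x' + (D p x y₂ + D p y₂ x') + (D p x y₃ + D p y₃ x')
  lower : ∀ p, p.length ≤ N → ∀ s t,
    ‖crd (state p).1 (state p).2 s - crd (state p).1 (state p).2 t‖ ≤ D p s t
  upper : ∀ p, p.length ≤ N → ∀ s t,
    D p s t ≤ C * ‖crd (state p).1 (state p).2 s - crd (state p).1 (state p).2 t‖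
  tr : ∀ p m, (m :: p).length ≤ N → ∀ s t s' t', trs p m s = some s' → trs p m t = some t' →
    D (m :: p) s t = D p s' t'

/-- the move which keeps the frame and changes the gadget -/
def keep {n : ℕ} (j : Fin n) : Mv n :=
  (Fin.last (n + 1), Sum.inl (Fin.last (n + 1), false), Sum.inl (Fin.last (n + 1), true), j)

/-- error -/
noncomputable def eta : ℝ := 1 / 63

namespace Strat

variable {n : ℕ} [NeZero n] {N : ℕ} {C : ℝ} (A : Strat n N C)

/-- stretch of the hubs of direction `l` -/
noncomputable def kk (p : List (Mv n)) (l : Fin (n + 2)) : ℝ :=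
  A.D p (Sum.inl (l, false)) (Sum.inl (l, true)) / (state p).1 l

/-- violation of index `i` -/
def Viol (p : List (Mv n)) (i : Fin (n + 2)) : Prop :=
  ∃ (j : Fin n) (a b : Sl n), Good (state p).1 j i a b ∧
    rho (state p).1 ≤ ‖crd (state p).1 j a - crd (state p).1 j b‖ ∧
    A.kk p i * ‖crd (state p).1 j a - crd (state p).1 j b‖ + eta * rho (state p).1 <
      A.D (keep j :: p) a b

end Strat

end P235
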