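import Vale.Agent.P235.Defs

/-!
A system of bags along the infinite tree `List M` (`m :: p` is the child of `p` with label `m`).
Every bag has the slots `S`; slot `s` of the bag `m :: p` holds the vertex of slot `s'` of the bag `p`
if `tr p m s = some s'`, and a new vertex if `tr p m s = none`.  `δ p` is the metric of the bag `p`.
-/

open MeasureTheory

namespace P235

/-- a system of bags -/
structure Sys (M S : Type) where
  tr : List M → M → S → Option S
  δ : List M → S → S → ℝ
  δ_self : ∀ p s, δ p s s = 0
  δ_symm : ∀ p s t, δ p s t = δ p t s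
  δ_tri : ∀ p s t u, δ p s u ≤ δ p s t + δ p t u
  δ_pos : ∀ p s t, s ≠ t → 0 < δ p s t
  δ_tr : ∀ p m s t s' t', tr p m s = some s' → tr p m t = some t' → δ (m :: p) s t = δ p s' t'
  tr_inj : ∀ p m s t a, tr p m s = some a → tr p m t = some a → s = t
  tr_some : ∀ p m, ∃ s s', tr p m s = some s'

namespace Sys

variable {M S : Type} (A : Sys M S)

/-- the vertex in slot `s` of the bag `p` (named by the place where it was created) -/
def rep : List M → S → List M × S
  | [], s => ([], s)
  | m :: p, s => match A.tr p m s with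
    | some s' => rep p s'
    | none => (m :: p, s)

theorem rep_some {p : List M} {m : M} {s s' : S} (h : A.tr p m s = some s') :
    A.rep (m :: p) s = A.rep p s' := by
  simp only [rep, h]

theorem rep_none {p : List M} {m : M} {s : S} (h : A.tr p m s = none) :
    A.rep (m :: p) s = (m :: p, s) := by
  simp only [rep, h]

/-- nodes of depth at most `N` -/
abbrev Node (M : Type) (N : ℕ) := {p : List M // p.length ≤ N}

/-- vertices -/
def V (N : ℕ) : Type := {v : List M × S // ∃ p s, p.length ≤ N ∧ A.rep p s = v}

/-- the vertex in slot `s` of the bag `t` -/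
def vx {N : ℕ} (t : Node M N) (s : S) : A.V N := ⟨A.rep t.1 s, t.1, s, t.2, rfl⟩

/-- the graph: every bag is a clique -/
def G (N : ℕ) : SimpleGraph (A.V N) where
  Adj u v := u ≠ v ∧ ∃ (t : Node M N) (s s' : S), A.vx t s = u ∧ A.vx t s' = v
  symm := by
    constructor
    rintro u v ⟨h, t, s, s', h1, h2⟩
    exact ⟨h.symm, t, s', s, h2, h1⟩
  loopless := ⟨fun u h => h.1 rfl⟩

/-- the edge lengths -/
noncomputable def len (N : ℕ) (e : Sym2 (A.V N)) : ℝ :=
  sInf {r | ∃ (t : Node M N) (s s' : S), s ≠ s' ∧ e = s(A.vx t s, A.vx t s') ∧ r = A.δ t.1 s s'}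

/-- the tree of the nodes -/
def nodeTree (M : Type) (N : ℕ) : SimpleGraph (Node M N) where
  Adj a b := ∃ m, b.1 = m :: a.1 ∨ a.1 = m :: b.1
  symm := by
    constructor
    rintro a b ⟨m, h⟩
    exact ⟨m, h.symm⟩
  loopless := by
    constructor
    rintro a ⟨m, h⟩
    have := congrArg List.length (h.elim id id)
    simp at this

end Sys

end P235
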