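import Vale.Agent.P235.Sys

/-! Module S1: elementary properties of the graph of a system of bags. -/

open MeasureTheory

namespace P235

namespace Sys

variable {M S : Type} (A : Sys M S)

theorem rep_length (p : List M) (s : S) : (A.rep p s).1.length ≤ p.length := by
  induction p generalizing s with
  | nil => simp [rep]
  | cons m p ih =>
    rcases h : A.tr p m s with _ | s'
    · rw [A.rep_none h]
    · rw [A.rep_some h]
      have := ih s'
      simp only [List.length_cons]
      omega

theorem rep_injective (p : List M) : Function.Injective (A.rep p) := by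
  induction p with
  | nil =>
    intro s t h
    simpa [rep] using h
  | cons m p ih =>
    intro s t h
    rcases hs : A.tr p m s with _ | s'
    · rcases ht : A.tr p m t with _ | t'
      · rw [A.rep_none hs, A.rep_none ht] at h
        exact (Prod.mk.inj h).2
      · rw [A.rep_none hs, A.rep_some ht] at h
        have h1 := A.rep_length p t'
        rw [← h] at h1
        simp at h1
    · rcases ht : A.tr p m t with _ | t'
      · rw [A.rep_some hs, A.rep_none ht] at h
        have h1 := A.rep_length p s'
        rw [h] at h1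
        simp at h1
      · rw [A.rep_some hs, A.rep_some ht] at h
        have h1 := ih h
        subst h1
        exact A.tr_inj p m s t s' hs ht

/-- the vertex is in the bag where it was created -/
theorem rep_rep {p q : List M} {s a : S} (h : A.rep p s = (q, a)) : A.rep q a = (q, a) := by
  induction p generalizing s with
  | nil =>
    simp only [rep, Prod.mk.injEq] at h
    obtain ⟨h1, h2⟩ := h
    subst h1
    subst h2
    rfl
  | cons m p ih =>
    rcases hs : A.tr p m s with _ | s'
    · rw [A.rep_none hs] at h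
      obtain ⟨h1, h2⟩ := Prod.mk.inj h
      subst h1
      subst h2
      exact A.rep_none hs
    · rw [A.rep_some hs] at h
      exact ih h

theorem vx_injective {N : ℕ} (t : Node M N) : Function.Injective (A.vx t) := by
  intro s s' h
  exact A.rep_injective t.1 (congrArg Subtype.val h)

theorem adj_vx {N : ℕ} (t : Node M N) {s s' : S} (h : s ≠ s') :
    (A.G N).Adj (A.vx t s) (A.vx t s') :=
  ⟨fun h' => h (A.vx_injective t h'), t, s, s', rfl, rfl⟩

theorem finite_node [Finite M] (N : ℕ) : Finite (Node M N) :=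
  (List.finite_length_le M N).to_subtype

theorem finite_V [Finite M] [Finite S] (N : ℕ) : Finite (A.V N) := by
  have := finite_node (M := M) N
  refine Finite.of_surjective (fun x : Node M N × S => A.vx x.1 x.2) ?_
  rintro ⟨v, p, s, hp, hv⟩
  exact ⟨(⟨p, hp⟩, s), Subtype.ext hv⟩

theorem connected [Nonempty S] (N : ℕ) : (A.G N).Connected := by
  obtain ⟨s0⟩ := ‹Nonempty S›
  have hadj : ∀ (t : Node M N) (s s' : S), (A.G N).Reachable (A.vx t s) (A.vx t s') := by
    intro t s s'
    by_cases h : s = s'
    · rw [h]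
    · exact (A.adj_vx t h).reachable
  set r : Node M N := ⟨[], Nat.zero_le _⟩
  have key : ∀ (p : List M) (hp : p.length ≤ N) (s : S),
      (A.G N).Reachable (A.vx ⟨p, hp⟩ s) (A.vx r s0) := by
    intro p
    induction p with
    | nil => intro hp s; exact hadj r s s0
    | cons m p ih =>
      intro hp s
      obtain ⟨s1, s1', h1⟩ := A.tr_some p m
      have hp' : p.length ≤ N := by
        simp only [List.length_cons] at hp
        omega
      have e : A.vx ⟨m :: p, hp⟩ s1 = A.vx (⟨p, hp'⟩ : Node M N) s1' :=
        Subtype.ext (A.rep_some h1)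
      refine (hadj ⟨m :: p, hp⟩ s s1).trans ?_
      rw [e]
      exact ih hp' s1'
  have key2 : ∀ v : A.V N, (A.G N).Reachable v (A.vx r s0) := by
    rintro ⟨v, p, s, hp, hv⟩
    have := key p hp s
    have e : A.vx (⟨p, hp⟩ : Node M N) s = ⟨v, p, s, hp, hv⟩ := Subtype.ext hv
    rw [e] at this
    exact this
  have : Nonempty (A.V N) := ⟨A.vx r s0⟩
  exact SimpleGraph.Connected.mk (fun u v => (key2 u).trans (key2 v).symm)

theorem len_pos [Finite M] [Finite S] {N : ℕ} {e : Sym2 (A.V N)} (he : e ∈ (A.G N).edgeSet) :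
    0 < A.len N e := by
  have := finite_node (M := M) N
  set R : Set ℝ := {r | ∃ (t : Node M N) (s s' : S), s ≠ s' ∧ e = s(A.vx t s, A.vx t s') ∧
    r = A.δ t.1 s s'} with hR
  have hfin : R.Finite := by
    refine (Set.finite_range (fun x : Node M N × S × S => A.δ x.1.1 x.2.1 x.2.2)).subset ?_
    rintro r ⟨t, s, s', _, _, rfl⟩
    exact ⟨(t, s, s'), rfl⟩
  have hne : R.Nonempty := by
    induction e using Sym2.ind with
    | _ u v =>
      rw [SimpleGraph.mem_edgeSet] at he
      obtain ⟨h, t, s, s', h1, h2⟩ := he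
      refine ⟨A.δ t.1 s s', t, s, s', ?_, ?_, rfl⟩
      · rintro rfl
        exact h (h1.symm.trans h2)
      · rw [h1, h2]
  obtain ⟨t, s, s', h1, _, h3⟩ := hne.csInf_mem hfin
  have : A.len N e = A.δ t.1 s s' := h3
  rw [this]
  exact A.δ_pos _ _ _ h1

theorem len_le {N : ℕ} (t : Node M N) {s s' : S} (h : s ≠ s') :
    A.len N s(A.vx t s, A.vx t s') ≤ A.δ t.1 s s' := by
  refine csInf_le ⟨0, ?_⟩ ⟨t, s, s', h, rfl, rfl⟩
  rintro r ⟨t, s, s', h1, _, rfl⟩
  exact (A.δ_pos _ _ _ h1).le

/-- a function which is Lipschitz on all bags is Lipschitz on edges -/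
theorem abs_sub_le_len {N : ℕ} (F : List M × S → ℝ)
    (hF : ∀ p s t, |F (A.rep p s) - F (A.rep p t)| ≤ A.δ p s t) {u v : A.V N}
    (h : (A.G N).Adj u v) : |F u.1 - F v.1| ≤ A.len N s(u, v) := by
  obtain ⟨hne, t, s, s', h1, h2⟩ := h
  refine le_csInf ⟨A.δ t.1 s s', t, s, s', ?_, by rw [h1, h2], rfl⟩ ?_
  · rintro rfl
    exact hne (h1.symm.trans h2)
  · rintro r ⟨t, a, b, hab, he, rfl⟩
    rw [Sym2.eq_iff] at he
    rcases he with ⟨rfl, rfl⟩ | ⟨rfl, rfl⟩
    · exact hF t.1 a b
    · rw [abs_sub_comm]
      exact hF t.1 a b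

end Sys

end P235
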