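import Vale.Agent.P235.SysBasic

/-! Module S2: the tree decomposition.  `nodeTree` is a tree (connected, and
`card edges + 1 ≤ card vertices`: `SimpleGraph.isTree_iff_connected_and_card`, every edge is
`s(p, m :: p)`, surjection from the non-root nodes).  The nodes whose bag contains `v = (q, a)` are
connected to the node `q` where `v` was created: if `v` is in the bag of `m :: p` and was not created
there, then it is in the bag of `p`. -/

open MeasureTheory

namespace P235

namespace Sys

variable {M S : Type} (A : Sys M S)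

theorem nodeTree_isTree [Finite M] (N : ℕ) : (nodeTree M N).IsTree := by
  classical
  have := finite_node (M := M) N
  set r : Node M N := ⟨[], Nat.zero_le _⟩ with hr
  have key : ∀ (p : List M) (hp : p.length ≤ N), (nodeTree M N).Reachable ⟨p, hp⟩ r := by
    intro p
    induction p with
    | nil => intro hp; exact SimpleGraph.Reachable.refl _
    | cons m p ih =>
      intro hp
      have hp' : p.length ≤ N := by
        simp only [List.length_cons] at hp
        omega
      have hadj : (nodeTree M N).Adj ⟨m :: p, hp⟩ ⟨p, hp'⟩ := ⟨m, Or.inr rfl⟩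
      exact hadj.reachable.trans (ih hp')
  have : Nonempty (Node M N) := ⟨r⟩
  have hconn : (nodeTree M N).Connected :=
    SimpleGraph.Connected.mk (fun u v => (key u.1 u.2).trans (key v.1 v.2).symm)
  rw [SimpleGraph.isTree_iff_connected_and_card]
  refine ⟨hconn, le_antisymm ?_ hconn.card_vert_le_card_edgeSet_add_one⟩
  set par : Node M N → Node M N := fun t => ⟨t.1.tail, by
    have := t.2
    rw [List.length_tail]
    omega⟩ with hpar
  have hsub : (nodeTree M N).edgeSet ⊆ (fun t => s(par t, t)) '' ({r}ᶜ : Set (Node M N)) := by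
    intro e he
    induction e using Sym2.ind with
    | _ u v =>
      rw [SimpleGraph.mem_edgeSet] at he
      obtain ⟨m, h | h⟩ := he
      · refine ⟨v, ?_, ?_⟩
        · intro hv
          rw [Set.mem_singleton_iff] at hv
          rw [hv] at h
          simp [hr] at h
        · have : par v = u := Subtype.ext (by rw [hpar]; simp [h])
          simp only [this]
      · refine ⟨u, ?_, ?_⟩
        · intro hv
          rw [Set.mem_singleton_iff] at hv
          rw [hv] at h
          simp [hr] at h
        · have : par u = v := Subtype.ext (by rw [hpar]; simp [h])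
          simp only [this]
          exact Sym2.eq_swap
  have h1 : Nat.card (nodeTree M N).edgeSet ≤ ({r}ᶜ : Set (Node M N)).ncard := by
    rw [Nat.card_coe_set_eq]
    exact (Set.ncard_le_ncard hsub (Set.toFinite _)).trans (Set.ncard_image_le (Set.toFinite _))
  have h2 : ({r}ᶜ : Set (Node M N)).ncard + 1 = Nat.card (Node M N) := by
    rw [add_comm, ← Set.ncard_singleton r]
    exact Set.ncard_add_ncard_compl _
  omega

theorem treewidth_le [Finite M] [Finite S] (N w : ℕ) (hw : Nat.card S ≤ w + 1) :
    TreewidthLE (A.G N) w := by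
  classical
  refine ⟨⟨Node M N, nodeTree M N, nodeTree_isTree N,
    fun t => (Set.finite_range (A.vx t)).toFinset, ?_, ?_, ?_⟩⟩
  · rintro u v ⟨_, t, s, s', h1, h2⟩
    refine ⟨t, ?_, ?_⟩
    · rw [Set.Finite.mem_toFinset]
      exact ⟨s, h1⟩
    · rw [Set.Finite.mem_toFinset]
      exact ⟨s', h2⟩
  · rintro ⟨⟨q, a⟩, p0, s0, hp0, hv⟩
    set v : A.V N := ⟨(q, a), p0, s0, hp0, hv⟩ with hvdef
    have hq : q.length ≤ N := by
      have := A.rep_length p0 s0
      rw [hv] at this
      exact this.trans hp0
    have hqa := A.rep_rep hv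
    set X : Set (Node M N) := {t | v ∈ (Set.finite_range (A.vx t)).toFinset} with hX
    have memX : ∀ t : Node M N, t ∈ X ↔ ∃ s, A.rep t.1 s = (q, a) := by
      intro t
      rw [hX, Set.mem_setOf_eq, Set.Finite.mem_toFinset]
      constructor
      · rintro ⟨s, hs⟩
        exact ⟨s, congrArg Subtype.val hs⟩
      · rintro ⟨s, hs⟩
        exact ⟨s, Subtype.ext hs⟩
    have hr : (⟨q, hq⟩ : Node M N) ∈ X := (memX _).mpr ⟨a, hqa⟩
    have key : ∀ (p : List M) (hp : p.length ≤ N) (h : (⟨p, hp⟩ : Node M N) ∈ X),
        ((nodeTree M N).induce X).Reachable ⟨⟨p, hp⟩, h⟩ ⟨⟨q, hq⟩, hr⟩ := by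
      intro p
      induction p with
      | nil =>
        intro hp h
        obtain ⟨s, hs⟩ := (memX _).mp h
        simp only [rep, Prod.mk.injEq] at hs
        obtain ⟨h1, _⟩ := hs
        have e : (⟨⟨[], hp⟩, h⟩ : X) = ⟨⟨q, hq⟩, hr⟩ := Subtype.ext (Subtype.ext h1)
        rw [e]
      | cons m p ih =>
        intro hp h
        obtain ⟨s, hs⟩ := (memX _).mp h
        simp only at hs
        rcases ht : A.tr p m s with _ | s'
        · rw [A.rep_none ht] at hs
          have h1 := (Prod.mk.inj hs).1
          have e : (⟨⟨m :: p, hp⟩, h⟩ : X) = ⟨⟨q, hq⟩, hr⟩ := Subtype.ext (Subtype.ext h1)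
          rw [e]
        · rw [A.rep_some ht] at hs
          have hp' : p.length ≤ N := by
            simp only [List.length_cons] at hp
            omega
          have h' : (⟨p, hp'⟩ : Node M N) ∈ X := (memX _).mpr ⟨s', hs⟩
          have hadj : ((nodeTree M N).induce X).Adj ⟨⟨m :: p, hp⟩, h⟩ ⟨⟨p, hp'⟩, h'⟩ := by
            rw [SimpleGraph.induce_adj]
            exact ⟨m, Or.inr rfl⟩
          exact hadj.reachable.trans (ih hp' h')
    have : Nonempty X := ⟨⟨⟨q, hq⟩, hr⟩⟩
    exact SimpleGraph.Connected.mk (fun x y =>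
      (key x.1.1 x.1.2 x.2).trans (key y.1.1 y.1.2 y.2).symm)
  · intro t
    refine le_trans ?_ hw
    rw [← Set.ncard_eq_toFinset_card _ (Set.finite_range (A.vx t)), ← Set.image_univ,
      ← Set.ncard_univ]
    exact Set.ncard_image_le (Set.toFinite _)

end Sys

end P235
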